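import Vale.Agent.P032.H961.QI
import Vale.Agent.P032.H553.ClR1
import Vale.Agent.P032.H484.Tile
import Vale.Agent.P032.H492.IndexSet
import Vale.Agent.P032.H492.Recol
import Vale.Agent.P032.H460.ContVV

/-!
# P032, X: inside a closed all-STAY polygon the state of the inner colour is zero, over `QI`

The file `H492/NI.lean` over `QI0 T NoI` instead of `QF0`.
-/

open Set Filter Topology Metric

noncomputable section

namespace Vale.Agent.P032.H974

open Vale.Agent.P032.Six Vale.Agent.P032.S5.H767 Vale.Agent.P032.H961 Vale.Agent.P032.H460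
open Vale.Agent.P032.H492
open Vale.Agent.P032.Carr
open Vale.Agent.P032.S5 hiding pt

variable {U : Fin 6 → Set ℂ} {T : ℂ → Set (Fin 6)}

/-- an all-STAY chain with the constant colour `I` -/
structure StayC (T : ℂ → Set (Fin 6)) (I : Fin 6) (V : ℤ → ℂ) (O : ℤ → Fin 6) : Prop where
  qf : ∀ j, ∃ e f, QI0 T NoI (V j) I (O j) (O (j + 1)) (O (j - 1)) e f (V (j + 1)) (V (j - 1))

/-- the partner of a colour of a two-pair point is unique -/
theorem dpt_snd (h : Irr U T) {V : ℂ} {a b m n b' m' n' : Fin 6} (H : DPt T V a b m n)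
    (H' : DPt T V a b' m' n') : b = b' := by
  obtain ⟨p, hp, hpJ⟩ := H'.arc1
  have h1 : T p = {a, b'} := hpJ.self_of_nhdsWithin hp
  have hsub : T p ⊆ T V := by
    rw [h1, H'.pal]
    intro i hi
    simp only [mem_insert_iff, mem_singleton_iff] at hi ⊢
    tauto
  rcases (pv_of_dpt h H).near p hp hsub with h2 | h2
  · have h3 := sub_of_closure h h2 (show b ∈ ({a, b} : Set (Fin 6)) from Or.inr rfl)
    rw [h1] at h3
    rcases h3 with h3 | h3
    · exact absurd h3.symm H.ab
    · exact h3
  · exfalso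
    have h3 := sub_of_closure h h2 (show m ∈ ({m, n} : Set (Fin 6)) from Or.inl rfl)
    have h4 := sub_of_closure h h2 (show n ∈ ({m, n} : Set (Fin 6)) from Or.inr rfl)
    rw [h1] at h3 h4
    rcases h3 with h3 | h3
    · exact H.ac h3.symm
    · rcases h4 with h4 | h4
      · exact H.ad h4.symm
      · rw [mem_singleton_iff] at h3 h4
        exact H.cd (h3.trans h4.symm)

namespace StayC

variable {I : Fin 6} {V : ℤ → ℂ} {O : ℤ → Fin 6} {n : ℕ} {i j : ℤ}

theorem dpt (K : StayC T I V O) (j : ℤ) : DPt T (V j) I (O j) (O (j + 1)) (O (j - 1)) := by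
  obtain ⟨e, f, H⟩ := K.qf j
  exact H.dpt

theorem pal (K : StayC T I V O) (j : ℤ) : T (V j) = {I, O j, O (j + 1), O (j - 1)} := (K.dpt j).pal

theorem dist_succ (K : StayC T I V O) (j : ℤ) : dist (V (j + 1)) (V j) = 1 := by
  obtain ⟨e, f, H⟩ := K.qf j
  exact H.dist1

theorem dist_pred (K : StayC T I V O) (j : ℤ) : dist (V (j - 1)) (V j) = 1 := by
  obtain ⟨e, f, H⟩ := K.qf j
  exact H.dist2

theorem O_eq (K : StayC T I V O) (h : Irr U T) (hij : V i = V j) : O i = O j := by
  have h1 := K.dpt i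
  rw [hij] at h1
  exact dpt_snd h h1 (K.dpt j)

/-- the points of order four of the circle of a vertex -/
theorem end_of (K : StayC T I V O) {y : ℂ} (hy : dist y (V j) = 1) (h4 : 4 ≤ (T y).ncard) :
    y = V (j + 1) ∨ y = V (j - 1) := by
  obtain ⟨e, f, H⟩ := K.qf j
  rcases H.ord y hy h4 with h1 | h1 | h1
  · exact Or.inl h1
  · exact Or.inr h1
  · exact h1.elim

theorem pal_ne (K : StayC T I V O) (j : ℤ) (x y : Fin 6) : T (V j) ≠ {x, y} := by
  intro hcon
  have h1 := (K.dpt j).ncard
  rw [hcon] at h1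
  have h2 := Set.ncard_insert_le x ({y} : Set (Fin 6))
  rw [Set.ncard_singleton] at h2
  omega

theorem nb (K : StayC T I V O) (hij : V i = V j) :
    V (i + 1) = V (j + 1) ∨ V (i + 1) = V (j - 1) := by
  exact K.end_of (by rw [← hij]; exact K.dist_succ i) (K.dpt _).ncard.ge

theorem nb' (K : StayC T I V O) (hij : V i = V j) :
    V (i - 1) = V (j + 1) ∨ V (i - 1) = V (j - 1) := by
  exact K.end_of (by rw [← hij]; exact K.dist_pred i) (K.dpt _).ncard.ge

/-- the arc of `V j` in radians -/
theorem exists_arc (K : StayC T I V O) (j : ℤ) : ∃ α β : ℝ, V j + cis α = V (j - 1) ∧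
    V j + cis β = V (j + 1) ∧ α ≠ β ∧ |β - α| ≤ Real.pi / 3 ∧ ∀ θ ∈ uIcc α β,
      V j + cis θ = V (j + 1) ∨ V j + cis θ = V (j - 1) ∨ T (V j + cis θ) = {I, O j} := by
  obtain ⟨e, f, H⟩ := K.qf j
  obtain ⟨s, t, hst, hts, hends, hin, -⟩ := H.arc
  have hpi : 0 < Real.pi / 3 := by positivity
  have key : ∀ θ ∈ Icc (s * (Real.pi / 3)) (t * (Real.pi / 3)), V j + cis θ = pt (V j) s ∨
      V j + cis θ = pt (V j) t ∨ T (V j + cis θ) = {I, O j} := by
    intro θ hθ
    have e1 : θ = θ / (Real.pi / 3) * (Real.pi / 3) := by field_simp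
    have e2 : V j + cis θ = pt (V j) (θ / (Real.pi / 3)) := by
      unfold pt; rw [← e1]
    rw [e2]
    have h1 : s ≤ θ / (Real.pi / 3) := by rw [le_div_iff₀ hpi]; exact hθ.1
    have h2 : θ / (Real.pi / 3) ≤ t := by rw [div_le_iff₀ hpi]; exact hθ.2
    rcases h1.eq_or_lt with h3 | h3
    · left; rw [h3]
    · rcases h2.eq_or_lt with h4 | h4
      · right; left; rw [h4]
      · right; right; exact hin _ ⟨h3, h4⟩
  have hlt : s * (Real.pi / 3) < t * (Real.pi / 3) := by nlinarith
  have hsh : t * (Real.pi / 3) - s * (Real.pi / 3) ≤ Real.pi / 3 := by nlinarith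
  rcases hends with ⟨h1, h2⟩ | ⟨h1, h2⟩
  · refine ⟨s * (Real.pi / 3), t * (Real.pi / 3), ?_, ?_, hlt.ne, ?_, fun θ hθ => ?_⟩
    · rw [h2]; rfl
    · rw [h1]; rfl
    · rw [abs_of_pos (by linarith)]; exact hsh
    · rw [uIcc_of_le hlt.le] at hθ
      rcases key θ hθ with h3 | h3 | h3
      · exact Or.inr (Or.inl (h3.trans h2.symm))
      · exact Or.inl (h3.trans h1.symm)
      · exact Or.inr (Or.inr h3)
  · refine ⟨t * (Real.pi / 3), s * (Real.pi / 3), ?_, ?_, hlt.ne', ?_, fun θ hθ => ?_⟩
    · rw [h2]; rfl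
    · rw [h1]; rfl
    · rw [abs_of_neg (by linarith)]; linarith
    · rw [uIcc_of_ge hlt.le] at hθ
      rcases key θ hθ with h3 | h3 | h3
      · exact Or.inl (h3.trans h1.symm)
      · exact Or.inr (Or.inl (h3.trans h2.symm))
      · exact Or.inr (Or.inr h3)

/-- **the closed chain is a polygon** -/
theorem exists_poly (K : StayC T I V O) (h : Irr U T) (hodd : Odd n)
    (hper : ∀ j, V (j + n) = V j) : ∃ α β : ℤ → ℝ, H484.Poly U I n V α β ∧
      ∀ j, ∀ u ∈ H484.Gar V α β j, u = V (j + 1) ∨ u = V (j - 1) ∨ T u = {I, O j} := by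
  choose α β h1 h2 h3 h4 h5 using K.exists_arc
  refine ⟨α, β, ⟨hodd, hper, h1, h2, h3, fun j => (h4 j).trans_lt ?_, fun j t ht => ?_⟩, ?_⟩
  · linarith [Real.pi_pos]
  · refine h.sub _ ?_
    rcases h5 j t ht with h6 | h6 | h6
    · rw [h6, K.pal]; simp
    · rw [h6, K.pal]; simp
    · rw [h6]; simp
  · rintro j _ ⟨t, ht, rfl⟩
    exact h5 j t ht

end StayC

/-! ### the matching of the vertices with a given face -/

/-- consecutive vertices with the outer colours `b`, `d` -/
def Mt (V : ℤ → ℂ) (O : ℤ → Fin 6) (b d : Fin 6) (v w : ℂ) : Prop :=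
  ∃ j, (v = V j ∧ w = V (j + 1) ∨ v = V (j + 1) ∧ w = V j) ∧
    ({O j, O (j + 1)} : Set (Fin 6)) = {b, d}

theorem pair_cancel {x y z b d : Fin 6} (h1 : ({x, y} : Set (Fin 6)) = {b, d})
    (h2 : ({x, z} : Set (Fin 6)) = {b, d}) (hxy : x ≠ y) : y = z := by
  have h3 : y ∈ ({x, z} : Set (Fin 6)) := by rw [h2, ← h1]; simp
  rcases h3 with h3 | h3
  · exact absurd h3.symm hxy
  · exact h3

namespace StayC

variable {I b d : Fin 6} {V : ℤ → ℂ} {O : ℤ → Fin 6} {n : ℕ} {i j : ℤ} {v w w' : ℂ}

theorem mt_symm (h : Mt V O b d v w) : Mt V O b d w v := by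
  obtain ⟨j, h1, h2⟩ := h
  exact ⟨j, h1.symm.imp (fun h => ⟨h.2, h.1⟩) (fun h => ⟨h.2, h.1⟩), h2⟩

/-- a matched vertex in the form `V j`, the partner is a neighbour -/
theorem mt_out (h : Mt V O b d v w) : ∃ j, v = V j ∧
    (w = V (j + 1) ∧ ({O j, O (j + 1)} : Set (Fin 6)) = {b, d} ∨
      w = V (j - 1) ∧ ({O j, O (j - 1)} : Set (Fin 6)) = {b, d}) := by
  obtain ⟨j, ⟨h1, h2⟩ | ⟨h1, h2⟩, h3⟩ := h
  · exact ⟨j, h1, Or.inl ⟨h2, h3⟩⟩
  · exact ⟨j + 1, h1, Or.inr ⟨by rw [add_sub_cancel_right]; exact h2, by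
      rw [add_sub_cancel_right, Set.pair_comm]; exact h3⟩⟩

theorem mt_unique (K : StayC T I V O) (h : Irr U T) (h1 : Mt V O b d v w)
    (h2 : Mt V O b d v w') : w = w' := by
  obtain ⟨j, rfl, hj⟩ := mt_out h1
  obtain ⟨i, hij, hi⟩ := mt_out h2
  have hO := K.O_eq h hij
  have D := K.dpt j
  have D' := K.dpt i
  -- the four cases
  rcases hj with ⟨e1, e2⟩ | ⟨e1, e2⟩ <;> rcases hi with ⟨e3, e4⟩ | ⟨e3, e4⟩
  · rw [e1, e3]
    rcases K.nb hij with h5 | h5
    · exact h5
    · exfalso
      rw [← hO] at e4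
      have h6 := pair_cancel e2 e4 D.bc
      have h7 := K.O_eq h h5
      exact D'.cd (h6.symm.trans h7)
  · rw [e1, e3]
    rcases K.nb hij with h5 | h5
    · exfalso
      rw [← hO] at e4
      have h6 := pair_cancel e2 e4 D.bc
      have h7 := K.O_eq h h5
      exact D'.cd (h7.symm.trans h6)
    · exact h5
  · rw [e1, e3]
    rcases K.nb' hij with h5 | h5
    · exact h5
    · exfalso
      rw [← hO] at e4
      have h6 := pair_cancel e2 e4 D.bd
      have h7 := K.O_eq h h5
      exact D'.cd (h6.symm.trans h7)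
  · rw [e1, e3]
    rcases K.nb' hij with h5 | h5
    · exfalso
      rw [← hO] at e4
      have h6 := pair_cancel e2 e4 D.bd
      have h7 := K.O_eq h h5
      exact D'.cd (h7.symm.trans h6)
    · exact h5

theorem mt_ne (K : StayC T I V O) (h1 : Mt V O b d v w) : w ≠ v := by
  obtain ⟨j, ⟨rfl, rfl⟩ | ⟨rfl, rfl⟩, -⟩ := h1
  · intro h2
    have := K.dist_succ j
    rw [h2, dist_self] at this
    exact zero_ne_one this
  · intro h2
    have := K.dist_succ j
    rw [← h2, dist_self] at this
    exact zero_ne_one this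

/-- the number of vertices with a given face is even -/
theorem even_card (K : StayC T I V O) (h : Irr U T) (b d : Fin 6) (S : Finset ℂ)
    (hS : ∀ v, v ∈ S ↔ ∃ w, Mt V O b d v w) : Even S.card := by
  have h1 : ∀ v ∈ S, ∃ w, Mt V O b d v w := fun v hv => (hS v).1 hv
  choose! g hg using h1
  have hmem : ∀ v (_ : v ∈ S), g v ∈ S := fun v hv => (hS _).2 ⟨v, mt_symm (hg v hv)⟩
  have h2 : ∑ _v ∈ S, (1 : ZMod 2) = 0 := by
    refine Finset.sum_involution (fun v _ => g v) (fun v hv => ?_) (fun v hv _ => ?_)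
      (fun v hv => hmem v hv) (fun v hv => ?_)
    · decide
    · exact K.mt_ne (hg v hv)
    · exact K.mt_unique h (hg _ (hmem v hv)) (mt_symm (hg v hv))
  simp only [Finset.sum_const, nsmul_eq_mul, mul_one] at h2
  exact (ZMod.natCast_eq_zero_iff_even).1 h2

/-- the midpoint of a side is inside -/
theorem interior_nonempty (K : StayC T I V O) (h : Irr U T) {α β : ℤ → ℝ}
    (P : H484.Poly U I n V α β) : (interior (H484.Tl V)).Nonempty := by
  refine ⟨(1 / 2 : ℝ) • V 1 + (1 / 2 : ℝ) • V 0, P.mem_int fun j => ?_⟩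
  have h1 := (strictConvex_closedBall ℝ (V j) 1) (mem_closedBall.2 (P.dist_le h 1 j))
    (mem_closedBall.2 (P.dist_le h 0 j)) (fun hcon => by
      have := K.dist_succ 0
      rw [zero_add, hcon, dist_self] at this
      exact zero_ne_one this) (a := 1 / 2) (b := 1 / 2) (by norm_num) (by norm_num) (by norm_num)
  rw [interior_closedBall _ one_ne_zero] at h1
  exact mem_ball.1 h1

variable {f : ℂ → Set (Fin 6)} {Z : Set ℂ} {c x : ℂ} {R δ₀ : ℝ} {α β : ℤ → ℝ}

theorem reg (K : StayC T I V O) (h : Irr U T) (P : H484.Poly U I n V α β)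
    (hG : ∀ j, ∀ u ∈ H484.Gar V α β j, u = V (j + 1) ∨ u = V (j - 1) ∨ T u = {I, O j}) :
    Reg U T I (H484.Tl V) (interior (H484.Tl V)) where
  closed := H484.isClosed_tl V
  opn := isOpen_interior
  sub := interior_subset
  int := P.tile_int h
  bd := fun x hx hx' => by
    obtain ⟨j, hj⟩ := mem_iUnion.1 (P.frontier_sub h ⟨subset_closure hx, hx'⟩)
    rcases hG j x hj with h1 | h1 | h1
    · rw [h1, K.pal]; simp
    · rw [h1, K.pal]; simp
    · rw [h1]; simp

theorem lt_one (hx : x ∈ interior (H484.Tl V)) (j : ℤ) : dist x (V j) < 1 := by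
  have h1 : interior (H484.Tl V) ⊆ interior (closedBall (V j) 1) :=
    interior_mono fun y hy => hy j
  have h2 := h1 hx
  rw [interior_closedBall _ one_ne_zero] at h2
  exact mem_ball.1 h2

/-- the colour `I` is not on the circle of an inner point -/
theorem av (h : Irr U T) (P : H484.Poly U I n V α β) (hx : x ∈ interior (H484.Tl V)) :
    Av T x I := by
  intro y hy
  obtain ⟨i, hi⟩ := h.ne y
  refine ⟨i, hi, ?_⟩
  rintro rfl
  exact h.mx.notMem' (P.tile_int h hx) (by rw [dist_comm]; exact hy) (h.sub y hi)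

/-- **inside the polygon the state of the colour `I` is zero** -/
theorem NI_int (K : StayC T I V O) (D : DSt U T Z f c R δ₀) (P : H484.Poly U I n V α β)
    (hG : ∀ j, ∀ u ∈ H484.Gar V α β j, u = V (j + 1) ∨ u = V (j - 1) ∨ T u = {I, O j})
    (hf : ∀ j, f (V j) = {O (j + 1), O (j - 1)}) (hx : x ∈ interior (H484.Tl V))
    (hxc : dist x c ≤ R - 1) (b d : Fin 6) : lamT T Z f δ₀ I x b d = 0 := by
  have h := D.df.irr
  by_cases hnd : I ≠ b ∧ I ≠ d ∧ b ≠ d
  swap
  · exact lamT_ne hnd x
  obtain ⟨hIb, hId, hbd⟩ := hnd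
  have hxV := lt_one hx
  have hfin : {v | ∃ w, Mt V O b d v w}.Finite := by
    refine P.finite.subset ?_
    rintro v ⟨w, hw⟩
    obtain ⟨j, rfl, -⟩ := mt_out hw
    exact ⟨j, rfl⟩
  refine D.toggle hxc (av h P hx) hIb hId hbd hfin.toFinset (fun v hv => ?_)
    (K.even_card h b d _ fun v => by simp) (fun g δ₁ D₁ hg1 hg2 => ?_)
  · obtain ⟨w, hw⟩ := hfin.mem_toFinset.1 hv
    obtain ⟨j, rfl, hj⟩ := mt_out hw
    refine ⟨⟨_, _, _, _, K.dpt j⟩, by rw [dist_comm]; exact hxV j, ?_⟩
    rw [K.pal]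
    have hb : ({b, d} : Set (Fin 6)) ⊆ {O j, O (j + 1), O (j - 1)} := by
      rcases hj with ⟨-, h1⟩ | ⟨-, h1⟩ <;> rw [← h1] <;> intro i hi <;>
        simp only [mem_insert_iff, mem_singleton_iff] at hi ⊢ <;> tauto
    exact insert_subset_insert hb
  · by_contra hne
    have G := K.reg h P hG
    obtain ⟨δ₂, H₂, hrec⟩ := G.lam_recol D₁
    obtain ⟨hrB, hlam⟩ := hrec x (D₁.rg hxc)
    have havB : Av (recB T I (H484.Tl V) (interior (H484.Tl V))) x I := by
      intro y hy
      by_cases hyQ : y ∈ interior (H484.Tl V)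
      · exfalso
        exact h.mx.notMem' (P.tile_int h hx) (by rw [dist_comm]; exact hy)
          (subset_closure (P.tile_int h hyQ))
      · rw [G.recB_off hyQ]
        exact av h P hx y hy
    rw [hlam I (av h P hx) havB b d] at hne
    obtain ⟨u, hu, hF, -⟩ := H₂.supp_T hrB havB hne
    have huQ : u ∉ interior (H484.Tl V) := by
      intro huQ
      have h1 : b ∈ recB T I (H484.Tl V) (interior (H484.Tl V)) u := hF.1 (by simp)
      rw [G.recB_on huQ] at h1
      exact hIb h1.symm
    have hF1 := hF.1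
    rw [G.recB_off huQ] at hF1
    have hIu : I ∈ T u := hF1 (by simp)
    have hbu : b ∈ T u := hF1 (by simp)
    have hdu : d ∈ T u := hF1 (by simp)
    -- `u` is in the tile
    have huT : u ∈ H484.Tl V := by
      by_contra hcon
      have := P.tile_far_lt h hcon (h.sub u hIu) hx
      rw [mem_closedBall] at hu
      linarith
    obtain ⟨j, hj⟩ := mem_iUnion.1 (P.frontier_sub h ⟨subset_closure huT, huQ⟩)
    have key : ∀ i, u = V i → False := by
      rintro i rfl
      have hVZ : V i ∈ Z := D.memZ hxc (mem_closedBall.1 hu) (K.dpt i).ncard.ge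
      refine hF.2 hVZ ?_
      rw [K.pal] at hbu hdu
      have D' := K.dpt i
      have hnb := D'.bc
      have hnb' := D'.bd
      simp only [mem_insert_iff, mem_singleton_iff] at hbu hdu
      have hb' := hbu.resolve_left (Ne.symm hIb)
      have hd' := hdu.resolve_left (Ne.symm hId)
      by_cases hOi : O i = b ∨ O i = d
      · -- a toggled vertex
        have hres : ({O i, O (i + 1)} : Set (Fin 6)) = {b, d} ∨
            ({O i, O (i - 1)} : Set (Fin 6)) = {b, d} := by
          rcases hOi with e | e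
          · rcases hd' with e' | e' | e'
            · exact absurd (e.symm.trans e'.symm) hbd
            · left; rw [e, ← e']
            · right; rw [e, ← e']
          · rcases hb' with e' | e' | e'
            · exact absurd (e'.trans e) hbd
            · left; rw [e, ← e', Set.pair_comm]
            · right; rw [e, ← e', Set.pair_comm]
        have hiS : V i ∈ hfin.toFinset := by
          refine hfin.mem_toFinset.2 ?_
          rcases hres with e | e
          · exact ⟨V (i + 1), i, Or.inl ⟨rfl, rfl⟩, e⟩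
          · refine ⟨V (i - 1), i - 1, Or.inr ⟨by rw [sub_add_cancel], rfl⟩, ?_⟩
            rw [sub_add_cancel, Set.pair_comm]; exact e
        rw [hg1 _ hiS, hf, K.pal]
        rintro k ⟨hk, hk'⟩
        simp only [mem_insert_iff, mem_singleton_iff, not_or] at hk hk' ⊢
        rcases hk with rfl | rfl | rfl | rfl
        · exact Or.inl rfl
        · rcases hOi with e | e
          · exact Or.inr (Or.inl e)
          · exact Or.inr (Or.inr e)
        · exact absurd rfl hk'.1
        · exact absurd rfl hk'.2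
      · have hiS : V i ∉ hfin.toFinset := by
          intro hcon
          obtain ⟨w, hw⟩ := hfin.mem_toFinset.1 hcon
          obtain ⟨l, hl, hw⟩ := mt_out hw
          have e := K.O_eq h hl
          apply hOi
          rw [e]
          have h1 : O l ∈ ({b, d} : Set (Fin 6)) := by
            rcases hw with ⟨-, h1⟩ | ⟨-, h1⟩ <;> rw [← h1] <;> simp
          exact h1
        rw [hg2 _ hiS, hf]
        rw [not_or] at hOi
        intro k hk
        simp only [mem_insert_iff, mem_singleton_iff] at hk ⊢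
        rcases hb' with e | e | e
        · exact absurd e.symm hOi.1
        · rcases hd' with e' | e' | e'
          · exact absurd e'.symm hOi.2
          · exact absurd (e.trans e'.symm) hbd
          · rcases hk with e2 | e2
            · exact Or.inr (Or.inl (e2.trans e.symm))
            · exact Or.inr (Or.inr (e2.trans e'.symm))
        · rcases hd' with e' | e' | e'
          · exact absurd e'.symm hOi.2
          · rcases hk with e2 | e2
            · exact Or.inr (Or.inr (e2.trans e'.symm))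
            · exact Or.inr (Or.inl (e2.trans e.symm))
          · exact absurd (e.trans e'.symm) hbd
    rcases hG j u hj with h1 | h1 | h1
    · exact key _ h1
    · exact key _ h1
    · rw [h1] at hbu hdu
      simp only [mem_insert_iff, mem_singleton_iff] at hbu hdu
      have e1 := hbu.resolve_left (Ne.symm hIb)
      have e2 := hdu.resolve_left (Ne.symm hId)
      exact hbd (e1.trans e2.symm)

/-- **at the vertices of a closed all-STAY polygon the state of the inner colour is zero** -/
theorem NI (K : StayC T I V O) (D : DSt U T Z f c R δ₀) (hodd : Odd n)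
    (hper : ∀ j, V (j + n) = V j) (hf : ∀ j, f (V j) = {O (j + 1), O (j - 1)}) (j : ℤ)
    (hj : dist (V j) c < R - 1) (b d : Fin 6) : lamT T Z f δ₀ I (V j) b d = 0 := by
  have h := D.df.irr
  obtain ⟨α, β, P, hG⟩ := K.exists_poly h hodd hper
  have hI : I ∈ T (V j) := by rw [K.pal]; simp
  have hcl : V j ∈ closure (interior (H484.Tl V)) := by
    rw [(H484.convex_tl V).closure_interior_eq_closure_of_nonempty_interior
      (K.interior_nonempty h P)]
    exact subset_closure (P.mem_tl h j)
  have e1 : ∀ᶠ w in 𝓝 (V j), dist w c < R - 1 :=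
    (continuous_id.dist continuous_const).continuousAt.eventually (Iio_mem_nhds hj)
  obtain ⟨w, hw, h1, h2⟩ := ((mem_closure_iff_frequently.1 hcl).and_eventually
    ((D.hm.loc_T (D.rg hj.le) (av_T h hI)).and e1)).exists
  rw [← h1 (av h P hw)]
  exact K.NI_int D P hG hf hw h2.le b d

end StayC

end Vale.Agent.P032.H974
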