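import Vale.Agent.P032.H484.RodStay
import Vale.Agent.P032.H484.Polys
import Vale.Agent.P032.H169.KEnd
import Vale.Agent.P032.H802.ChainI
import Vale.Agent.P032.H553.ClR1

/-!
# P032: the polygons of a world in which all chains are all-STAY K chains, over `QI`

As `H484/PgOf.lean`, over the chains `ChI` of `H802/ChainI.lean` without invisible points.
-/

open Set Filter Topology Metric

noncomputable section

namespace Vale.Agent.P032.Six

open Vale.Agent.P032.S5.H767 Vale.Agent.P032.H961 Vale.Agent.P032.H484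

variable {U : Fin 6 → Set ℂ} {T : ℂ → Set (Fin 6)} {V : ℤ → ℂ} {l : ℤ → Fin 6}
  {name : ℤ → Fin 6 → Fin 6}

/-- the ends are determined by the vertex -/
theorem QI0.ends974 {V V1 V2 V1' V2' : ℂ} {a b m n e f a' b' m' n' e' f' : Fin 6}
    (h : QI0 T NoI V a b m n e f V1 V2) (h' : QI0 T NoI V a' b' m' n' e' f' V1' V2') :
    V1 = V1' ∧ V2 = V2' ∨ V1 = V2' ∧ V2 = V1' := by
  have k1 : V1' = V1 ∨ V1' = V2 := by
    rcases h.ord _ h'.dist1 h'.ord1.ge with k | k | k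
    · exact Or.inl k
    · exact Or.inr k
    · exact k.elim
  have k2 : V2' = V1 ∨ V2' = V2 := by
    rcases h.ord _ h'.dist2 h'.ord2.ge with k | k | k
    · exact Or.inl k
    · exact Or.inr k
    · exact k.elim
  have hne' := h'.ne12
  rcases k1 with k1 | k1 <;> rcases k2 with k2 | k2
  · exact absurd (k1.trans k2.symm) hne'
  · exact Or.inl ⟨k1.symm, k2.symm⟩
  · exact Or.inr ⟨k2.symm, k1.symm⟩
  · exact absurd (k1.trans k2.symm) hne'

namespace ChI974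

/-- the names along an all-STAY K chain -/
theorem nm (C : ChI nxR802 T NoI V l name) (hl : ∀ j, l j = 2) (j : ℤ) (r : Fin 6) :
    name (j + 1) r = name j ((![0, 2, 5, 1, 3, 4] : Fin 6 → Fin 6) r) := by
  have h : ∀ r : Fin 6, nxR802 2 r = (![0, 2, 5, 1, 3, 4] : Fin 6 → Fin 6) r := by decide
  rw [C.nm j r, hl j, h]

theorem inner (C : ChI nxR802 T NoI V l name) (hl : ∀ j, l j = 2) (j : ℤ) :
    name j 0 = name 0 0 := by
  have h : ∀ j : ℤ, name (j + 1) 0 = name j 0 := fun j => nm C hl j 0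
  induction j using Int.induction_on with
  | zero => rfl
  | succ i ih => rw [h, ih]
  | pred i ih =>
    have h1 := h (-(i : ℤ) - 1)
    rw [sub_add_cancel] at h1
    rw [← h1, ih]

theorem outer (C : ChI nxR802 T NoI V l name) (hl : ∀ j, l j = 2) (j : ℤ) :
    name j 2 = name (j + 1) 1 ∧ name j 3 = name (j - 1) 1 := by
  have h1 := nm C hl j 1
  have h2 := nm C hl (j - 1) 3
  rw [sub_add_cancel] at h2
  exact ⟨h1.symm, h2⟩

/-- the odd period of a half chain -/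
theorem half_period (h : Irr U T) (hw : QIW T NoI) (C : ChI nxR802 T NoI V l name)
    (hl : ∀ j, l j = 2)
    (hE : ∀ (c : ℂ) (R : ℝ), {z | dist z c ≤ R ∧ ∃ a b c' d, DPt T z a b c' d}.Finite) :
    ∃ n : ℕ, Odd n ∧ ∀ i : ℕ, V (i + 1 + n) = V (i + 1) := by
  obtain ⟨ρ, J⟩ := C.exists_kch h hw
  obtain ⟨h0, hturn⟩ := C.stayR802 h (fun j => Or.inr (Or.inr (hl j))) J
  have hτ : ∀ i, 0 < (ρ 1 - ρ 0) * (ρ (i + 1) - ρ i) := by
    intro i
    induction i with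
    | zero => exact mul_self_pos.2 (sub_ne_zero.2 (J.rods.ne 0))
    | succ i ih =>
      have h1 := hturn i
      have h3 : 0 < ((ρ 1 - ρ 0) * (ρ (i + 1) - ρ i)) *
          ((ρ (i + 1) - ρ i) * (ρ (i + 2) - ρ (i + 1))) := mul_pos ih h1
      have h4 : ((ρ 1 - ρ 0) * (ρ (i + 1) - ρ i)) *
          ((ρ (i + 1) - ρ i) * (ρ (i + 2) - ρ (i + 1))) =
          (ρ (i + 1) - ρ i) ^ 2 * ((ρ 1 - ρ 0) * (ρ (i + 1 + 1) - ρ (i + 1))) := by ring
      rw [h4] at h3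
      have h5 : 0 < (ρ (i + 1) - ρ i) ^ 2 := by
        have := sub_ne_zero.2 (J.rods.ne i)
        positivity
      exact (mul_pos_iff_of_pos_left h5).1 h3
  obtain ⟨n, hn, hper, -, -⟩ := stay_poly_fin (U := U) (g := name 0 0) J.rods h hτ
    (E := {z | ∃ a b c d, DPt T z a b c d})
    (fun c r => (hE c r).subset (by rintro z ⟨hz, hz'⟩; exact ⟨hz', hz⟩))
    (fun i => ⟨_, _, _, _, (C.qf (i : ℤ)).dpt⟩) (fun i θ hθ => h.sub _ (J.mem_arc h
      (x := name 0 0) (fun i => by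
      show name 0 0 ∈ ({name ((i + 1 : ℕ) : ℤ) 0, name ((i + 1 : ℕ) : ℤ) 1} : Set (Fin 6))
      rw [h0]; simp) i θ hθ))
  refine ⟨n, hn, fun i => ?_⟩
  have := (hper i).1
  push_cast at this
  exact this

/-- one step backwards -/
theorem back (C : ChI nxR802 T NoI V l name) {p : ℤ} {j : ℤ} (h0 : V (j + p) = V j)
    (h1 : V (j + 1 + p) = V (j + 1)) : V (j - 1 + p) = V (j - 1) := by
  have k1 := C.qf j
  have k2 := C.qf (j + p)
  rw [h0] at k2
  have h2 := QI0.ends974 k1.toQI0 k2.toQI0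
  rw [show j + p + 1 = j + 1 + p by ring, show j + p - 1 = j - 1 + p by ring, h1] at h2
  rcases h2 with ⟨-, h2⟩ | ⟨h2, h3⟩
  · exact h2.symm
  · exact absurd h3.symm k1.ne12

/-- **odd period** -/
theorem period (h : Irr U T) (hw : QIW T NoI) (C : ChI nxR802 T NoI V l name)
    (hl : ∀ j, l j = 2)
    (hE : ∀ (c : ℂ) (R : ℝ), {z | dist z c ≤ R ∧ ∃ a b c' d, DPt T z a b c' d}.Finite) :
    ∃ n : ℕ, Odd n ∧ ∀ j : ℤ, V (j + n) = V j := by
  obtain ⟨n, hn, hper⟩ := half_period h hw C hl hE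
  refine ⟨n, hn, ?_⟩
  have key : ∀ q : ℕ, V (1 - q + n) = V (1 - q) ∧ V (1 - q + 1 + n) = V (1 - q + 1) := by
    intro q
    induction q with
    | zero =>
      have h1 := hper 0
      have h2 := hper 1
      push_cast at h1 h2
      norm_num at h1 h2 ⊢
      exact ⟨h1, h2⟩
    | succ q ih =>
      have h1 := back C ih.1 ih.2
      push_cast
      rw [show (1 : ℤ) - (q + 1) = 1 - q - 1 by ring, sub_add_cancel]
      exact ⟨h1, ih.1⟩
  intro j
  rcases le_or_gt j 1 with h1 | h1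
  · obtain ⟨q, hq⟩ := Int.eq_ofNat_of_zero_le (show 0 ≤ 1 - j by omega)
    have h2 := (key q).1
    have h3 : 1 - (q : ℤ) = j := by
      have : (1 - j : ℤ) = q := hq
      omega
    rw [h3] at h2
    exact h2
  · obtain ⟨q, hq⟩ := Int.eq_ofNat_of_zero_le (show 0 ≤ j - 1 by omega)
    have h2 := hper q
    have h3 : (q : ℤ) + 1 = j := by
      have : (j - 1 : ℤ) = q := hq
      omega
    rw [h3] at h2
    exact h2

/-- **an all-STAY K chain is a tile with exact arcs** -/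
theorem pg (h : Irr U T) (hw : QIW T NoI) (C : ChI nxR802 T NoI V l name)
    (hl : ∀ j, l j = 2)
    (hE : ∀ (c : ℂ) (R : ℝ), {z | dist z c ≤ R ∧ ∃ a b c' d, DPt T z a b c' d}.Finite) :
    ∃ (n : ℕ) (α β : ℤ → ℝ), Pg U T (name 0 0) n V α β (fun j => name j 1) := by
  obtain ⟨n, hn, hper⟩ := period h hw C hl hE
  have ha := inner C hl
  have hpi := Real.pi_pos
  have hang : ∀ j : ℤ, ∃ α β : ℝ, V j + cis α = V (j - 1) ∧ V j + cis β = V (j + 1) ∧ α ≠ β ∧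
      |β - α| < Real.pi ∧ (∀ θ ∈ uIcc α β, name 0 0 ∈ Pal U (V j + cis θ)) ∧
        (∀ θ ∈ uIoo α β, T (V j + cis θ) = {name 0 0, name j 1}) ∧
        ∀ q, dist q (V j) = 1 → T q = {name 0 0, name j 1} → ∃ θ ∈ uIcc α β, q = V j + cis θ := by
    intro j
    have hq := C.qf j
    rw [ha j] at hq
    obtain ⟨s, t, g1, g2, g3, g4, g5⟩ := hq.arc
    have hcol := QChain.col169 h g1 g4 (show name 0 0 ∈ ({name 0 0, name j 1} : Set (Fin 6)) by simp)
    have hlt : s * (Real.pi / 3) < t * (Real.pi / 3) := mul_lt_mul_of_pos_right g1 (by positivity)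
    have hshort : (t * (Real.pi / 3)) - (s * (Real.pi / 3)) < Real.pi := by
      have : (t - s) * (Real.pi / 3) ≤ 1 * (Real.pi / 3) :=
        mul_le_mul_of_nonneg_right (by linarith) (by positivity)
      nlinarith
    have hpt : ∀ θ : ℝ, V j + cis θ = pt (V j) (θ / (Real.pi / 3)) := by
      intro θ
      unfold pt
      congr 2
      field_simp
    have hcl : ∀ θ, θ ∈ Icc (s * (Real.pi / 3)) (t * (Real.pi / 3)) →
        name 0 0 ∈ Pal U (V j + cis θ) := by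
      intro θ hθ
      rw [hpt]
      refine h.sub _ (hcol _ ⟨?_, ?_⟩)
      · rw [le_div_iff₀ (by positivity)]; exact hθ.1
      · rw [div_le_iff₀ (by positivity)]; exact hθ.2
    have hop : ∀ θ, θ ∈ Ioo (s * (Real.pi / 3)) (t * (Real.pi / 3)) →
        T (V j + cis θ) = {name 0 0, name j 1} := by
      intro θ hθ
      rw [hpt]
      refine g4 _ ⟨?_, ?_⟩
      · rw [lt_div_iff₀ (by positivity)]; exact hθ.1
      · rw [div_lt_iff₀ (by positivity)]; exact hθ.2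
    have hon : ∀ q, dist q (V j) = 1 → T q = {name 0 0, name j 1} →
        ∃ θ ∈ Icc (s * (Real.pi / 3)) (t * (Real.pi / 3)), q = V j + cis θ := by
      intro q hq1 hq2
      obtain ⟨u, hu, rfl⟩ := g5 q hq1 hq2
      exact ⟨u * (Real.pi / 3), ⟨mul_le_mul_of_nonneg_right hu.1 (by positivity),
        mul_le_mul_of_nonneg_right hu.2 (by positivity)⟩, rfl⟩
    rcases g3 with ⟨g3, g3'⟩ | ⟨g3, g3'⟩
    · refine ⟨s * (Real.pi / 3), t * (Real.pi / 3), g3'.symm, g3.symm, hlt.ne, ?_, ?_, ?_, ?_⟩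
      · rw [abs_of_pos (by linarith)]; exact hshort
      · rw [uIcc_of_le hlt.le]; exact hcl
      · rw [uIoo_of_le hlt.le]; exact hop
      · rw [uIcc_of_le hlt.le]; exact hon
    · refine ⟨t * (Real.pi / 3), s * (Real.pi / 3), g3'.symm, g3.symm, hlt.ne', ?_, ?_, ?_, ?_⟩
      · rw [abs_of_neg (by linarith)]; linarith
      · rw [uIcc_of_ge hlt.le]; exact hcl
      · rw [uIoo_of_ge hlt.le]; exact hop
      · rw [uIcc_of_ge hlt.le]; exact hon
  choose α β h1 h2 h3 h4 h5 h6 h7 using hang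
  have P : Poly U (name 0 0) n V α β := ⟨hn, hper, h1, h2, h3, h4, h5⟩
  refine ⟨n, α, β, P, h6, fun j q hq hTq => ?_, fun j => ?_⟩
  · obtain ⟨θ, hθ, rfl⟩ := h7 j q hq hTq
    exact P.arc_mem h j hθ
  · show T (V j) ⊆ {name 0 0, name j 1, name (j + 1) 1, name (j - 1) 1}
    rw [(C.qf j).pal, ha j, (outer C hl j).1, (outer C hl j).2]

end ChI974

/-- `Q` is the tile of an all-STAY K chain with the inner colour `g` -/
def IsPI (U : Fin 6 → Set ℂ) (T : ℂ → Set (Fin 6)) (g : Fin 6) (Q : Set ℂ) : Prop :=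
  ∃ V l name n α β, ChI nxR802 T NoI V l name ∧ (∀ j, l j = 2) ∧
    (∀ j, name j 0 = g) ∧ Pg U T g n V α β (fun j => name j 1) ∧ Q = Tl V

theorem IsPI.isPg {g : Fin 6} {Q : Set ℂ} (P : IsPI U T g Q) :
    IsPg U T {z | ∃ a b c' d, DPt T z a b c' d} g Q := by
  obtain ⟨V, l, name, n, α, β, C, -, -, P, rfl⟩ := P
  exact ⟨n, V, α, β, _, P, fun j => ⟨_, _, _, _, (C.qf j).dpt⟩, rfl⟩

/-- the index type of the polygons -/
abbrev PzI (U : Fin 6 → Set ℂ) (T : ℂ → Set (Fin 6)) : Type :=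
  {p : Fin 6 × Set ℂ // IsPI U T p.1 p.2}

/-- **every quasi-full point is in a tile, with its closed connecting arc** -/
theorem exists_isPI (h : Irr U T) (hw : QIW T NoI)
    (hE : ∀ (c : ℂ) (R : ℝ), {z | dist z c ≤ R ∧ ∃ a b c' d, DPt T z a b c' d}.Finite)
    (hS : ∀ V l name, ChI nxR802 T NoI V l name → ∀ j, l j = 2)
    {V V1 V2 : ℂ} {a b m n e f : Fin 6} (q : QI T NoI V a b m n e f V1 V2) :
    ∃ Q, IsPI U T a Q ∧ V ∈ Q ∧ V1 ∈ Q ∧ V2 ∈ Q ∧ closure (Ex T V {a, b}) ⊆ Q := by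
  obtain ⟨W, l, name, Z, w0, w1, w2, hν⟩ := exists_chIA hw (V₀ := V) (V1 := V1) (V2 := V2)
    (ν := ![a, b, m, n, e, f]) q
  obtain ⟨s, Z'⟩ := Z.rel802
  have hl := hS _ _ _ Z'
  obtain ⟨N, α, β, P⟩ := ChI974.pg h hw Z' hl hE
  have h0 := ChI974.inner Z' hl
  have e0 : name 0 (sw802 (s 0) 0) = a := by
    rw [hν]; cases s 0 <;> rfl
  have e1 : name 0 (sw802 (s 0) 1) = b := by
    rw [hν]; cases s 0 <;> rfl
  rw [e0] at P
  simp only [e0] at h0
  have hcl : IsClosed (Tl W) := isClosed_tl W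
  refine ⟨Tl W, ⟨W, _, _, N, α, β, Z', hl, h0, P, rfl⟩, ?_, ?_, ?_, ?_⟩
  · rw [← w0]; exact P.poly.mem_tl h 0
  · rw [← w1]; exact P.poly.mem_tl h 1
  · rw [← w2]; exact P.poly.mem_tl h (-1)
  · refine closure_minimal (fun y hy => ?_) hcl
    refine P.only 0 y (by rw [w0]; exact hy.1) ?_
    show T y = {a, name 0 (sw802 (s 0) 1)}
    rw [e1]
    exact ex_self hy

theorem pzI_lf (h : Irr U T)
    (hE : ∀ (c : ℂ) (R : ℝ), {z | dist z c ≤ R ∧ ∃ a b c' d, DPt T z a b c' d}.Finite) (x : ℂ) :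
    ∀ᶠ y in 𝓝 x, ∀ k : PzI U T, y ∈ k.1.2 → x ∈ k.1.2 :=
  (isPg_lf h (E := {z | ∃ a b c' d, DPt T z a b c' d})
    (fun c r => (hE c r).subset (by rintro z ⟨hz, hz'⟩; exact ⟨hz', hz⟩)) x).mono
    fun _ hy k => hy _ _ k.2.isPg

theorem pzI_op (h : Irr U T) (x : ℂ) (k : PzI U T) (hx : x ∈ k.1.2) :
    ∀ᶠ y in 𝓝 x, k.1.1 ∈ T y → y ∈ k.1.2 := isPg_op h k.2.isPg hx

theorem pzI_dis (h : Irr U T) (x : ℂ) (k l : PzI U T) (hk : x ∈ k.1.2) (hl : x ∈ l.1.2) :
    k = l := by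
  obtain ⟨h1, h2⟩ := isPg_dis h k.2.isPg l.2.isPg hk hl
  exact Subtype.ext (Prod.ext h1 h2)

/-- outside the polygons there is no connecting arc -/
theorem pzI_out (h : Irr U T) (hw : QIW T NoI)
    (hE : ∀ (c : ℂ) (R : ℝ), {z | dist z c ≤ R ∧ ∃ a b c' d, DPt T z a b c' d}.Finite)
    (hS : ∀ V l name, ChI nxR802 T NoI V l name → ∀ j, l j = 2) {x : ℂ}
    (hx : ∀ k : PzI U T, x ∉ k.1.2) {V V1 V2 : ℂ} {a b m n e f : Fin 6}
    (q : QI T NoI V a b m n e f V1 V2) :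
    x ≠ V ∧ x ≠ V1 ∧ x ≠ V2 ∧ x ∉ closure (Ex T V {a, b}) := by
  obtain ⟨Q, hQ, h1, h2, h3, h4⟩ := exists_isPI h hw hE hS q
  have h5 : x ∉ Q := hx ⟨(a, Q), hQ⟩
  exact ⟨fun h7 => h5 (h7 ▸ h1), fun h7 => h5 (h7 ▸ h2), fun h7 => h5 (h7 ▸ h3),
    fun h7 => h5 (h4 h7)⟩

end Vale.Agent.P032.Six
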