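import Vale.Agent.P032.H553.ClR1W
import Vale.Agent.P032.H758.Pure
import Vale.Agent.P032.H484.PgOf
import Vale.Agent.P032.H169.Pure
import Vale.Agent.P032.H974.StayPg
import Vale.Agent.P032.H974.StayNI

/-!
# P032, block X: the states of an all-STAY chain are the links of one plane

`Chn758.plane974` : the plane `N` of an all-STAY K chain.  `Chn758.vtx974` : if the inner colour sees
no face (`StayC.NI` of H492), the states of the other colours at the vertices are the links of `N`.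
`Chn758.tile974` : the same at all points of the tile, if the tile is pure (`exists_pure` of H169).
`stayEnd974` : no all-STAY chain, from the point at the tip of a side (`TipI`).
-/

open Set Filter Topology Metric

noncomputable section

namespace Vale.Agent.P032.Six

open Vale.Agent.P032.S5 Vale.Agent.P032.S5.Tab Vale.Agent.P032.Carr Vale.Agent.P032.H961
open Vale.Agent.P032.H484

variable {U : Fin 6 → Set ℂ} {T : ℂ → Set (Fin 6)} {f : ℂ → Set (Fin 6)} {Z : Set ℂ} {c : ℂ}
  {R δ₀ : ℝ} {V : ℤ → ℂ} {l : ℤ → Fin 6} {name : ℤ → Fin 6 → Fin 6}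

namespace Chn758

/-- the names of an all-STAY K chain -/
theorem nm2_974 (hC : Chn758 nxR802 T f V l name) (hl : ∀ j, l j = 2) (j : ℤ) (r : Fin 6) :
    name (j + 1) r = name j ((![0, 2, 5, 1, 3, 4] : Fin 6 → Fin 6) r) := by
  rw [hC.nm j r, hl j]
  revert r
  have h : ∀ r : Fin 6, nxR802 2 r = (![0, 2, 5, 1, 3, 4] : Fin 6 → Fin 6) r := by decide
  intro r
  rw [h]

/-- the inner colour is constant -/
theorem in974 (hC : Chn758 nxR802 T f V l name) (hl : ∀ j, l j = 2) (j : ℤ) :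
    name j 0 = name 0 0 := by
  have h : ∀ j : ℤ, name (j + 1) 0 = name j 0 := fun j => hC.nm2_974 hl j 0
  induction j using Int.induction_on with
  | zero => rfl
  | succ i ih => rw [h, ih]
  | pred i ih =>
    have h1 := h (-(i : ℤ) - 1)
    rw [sub_add_cancel] at h1
    rw [← h1, ih]

/-- the roles `2` and `3` are the outer colours of the neighbours -/
theorem out974 (hC : Chn758 nxR802 T f V l name) (hl : ∀ j, l j = 2) (j : ℤ) :
    name j 2 = name (j + 1) 1 ∧ name j 3 = name (j - 1) 1 := by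
  have h1 := hC.nm2_974 hl j 1
  have h2 := hC.nm2_974 hl (j - 1) 3
  rw [sub_add_cancel] at h2
  exact ⟨h1.symm, h2⟩

/-- the gauge in the outer colours -/
theorem gau974 (hC : Chn758 nxR802 T f V l name) (hl : ∀ j, l j = 2) (j : ℤ) :
    f (V j) = {name (j + 1) 1, name (j - 1) 1} := by
  rw [hC.gau j, (hC.out974 hl j).1, (hC.out974 hl j).2]

/-- **the plane of the chain** -/
theorem plane974 (hC : Chn758 nxR802 T f V l name) (hl : ∀ j, l j = 2) :
    ∃ N : Ch, RPN N ∧ ∀ j t x y, N {name j t, name j x, name j y} = tabA t x y :=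
  chain_RPN (hC.inj 0) (hC.nm2_974 hl)

/-- **the state at a vertex** -/
theorem vtx974 (hC : Chn758 nxR802 T f V l name) (D : DSt U T Z f c R δ₀)
    (F : Fac758 U T f V name) (hl : ∀ j, l j = 2) {N : Ch}
    (hN : ∀ j t x y, N {name j t, name j x, name j y} = tabA t x y) {j : ℤ}
    (hj : dist (V j) c ≤ R - 5)
    (hI : lamT T Z f δ₀ (name j 0) (V j) (name j 4) (name j 5) = 0) {i b d : Fin 6}
    (hi : i ∈ T (V j)) (hi0 : i ≠ name j 0) (hb : i ≠ b) (hd : i ≠ d) (hbd : b ≠ d) :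
    lamT T Z f δ₀ i (V j) b d = N {i, b, d} := by
  have hs : Function.Surjective (name j) := Finite.injective_iff_surjective.1 (hC.inj j)
  obtain ⟨t, rfl⟩ := hs i
  obtain ⟨x, rfl⟩ := hs b
  obtain ⟨y, rfl⟩ := hs d
  rw [hN]
  have ht : t < 4 := by
    rw [(hC.dpt j).pal] at hi
    rcases hi with h | h | h | h
    · rw [hC.inj j h]; decide
    · rw [hC.inj j h]; decide
    · rw [hC.inj j h]; decide
    · rw [hC.inj j h]; decide
  exact hC.stateA758 D F hl hj hI ht (fun h => hi0 (by rw [h])) (fun h => hbd (by rw [h]))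
    (fun h => hb (by rw [h])) fun h => hd (by rw [h])

/-- **the states on the tile of the chain** -/
theorem tile974 (hC : Chn758 nxR802 T f V l name) (D : DSt U T Z f c R δ₀)
    (F : Fac758 U T f V name) (hl : ∀ j, l j = 2) {N : Ch}
    (hN : ∀ j t x y, N {name j t, name j x, name j y} = tabA t x y) {g : Fin 6} {n : ℕ}
    {α β : ℤ → ℝ} (hg : ∀ j, name j 0 = g) (P : Pg U T g n V α β (fun j => name j 1))
    (hI : ∀ j, dist (V j) c < R - 1 → ∀ b d, lamT T Z f δ₀ g (V j) b d = 0)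
    (hfr : ∀ x ∈ frontier (Tl V), (∃ j, x = V j) ∨
      ∃ j, ∃ t ∈ uIoo (α j) (β j), x = V j + cis t ∧ T x = {g, name j 1})
    (hp : ∀ x ∈ interior (Tl V), T x = {g}) {x : ℂ} (hx : x ∈ Tl V) (hxc : dist x c ≤ R - 7)
    {i b d : Fin 6} (hi : i ∈ T x) (hig : i ≠ g) (hb : i ≠ b) (hd : i ≠ d) (hbd : b ≠ d) :
    lamT T Z f δ₀ i x b d = N {i, b, d} := by
  have h := D.df.irr
  have vtx : ∀ j, dist (V j) c ≤ R - 5 → i ∈ T (V j) → lamT T Z f δ₀ i (V j) b d = N {i, b, d} := by
    intro j hj hij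
    refine hC.vtx974 D F hl hN hj ?_ hij (by rw [hg]; exact hig) hb hd hbd
    rw [hg]
    exact hI j (by linarith) _ _
  by_cases hxi : x ∈ interior (Tl V)
  · rw [hp x hxi] at hi
    exact absurd hi hig
  rcases hfr x ⟨subset_closure hx, hxi⟩ with ⟨j, rfl⟩ | ⟨j, t, ht, he, hT⟩
  · exact vtx j (by linarith) hi
  · have hij : i = name j 1 := by
      rw [hT] at hi
      rcases hi with hi | hi
      · exact absurd hi hig
      · exact hi
    have hdV : ∀ s : ℝ, dist (V j + cis s) (V j) = 1 := fun s => dist_add_cis _ _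
    have hjc : dist (V j) c ≤ R - 6 := by
      have h1 := dist_triangle (V j) x c
      have h2 : dist (V j) x = 1 := by rw [he, dist_comm]; exact hdV t
      linarith
    have hcn : lamT T Z f δ₀ i x = lamT T Z f δ₀ i (V (j + 1)) := by
      refine D.const (C := (fun s : ℝ => V j + cis s) '' uIcc (α j) (β j))
        (isPreconnected_uIcc.image _ (continuous_const.add continuous_cis).continuousOn) ?_ ?_
        ⟨t, uIoo_sub_uIcc ht, he.symm⟩ ⟨β j, right_mem_uIcc, P.poly.right j⟩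
      · rintro _ ⟨s, -, rfl⟩
        have h1 := dist_triangle (V j + cis s) (V j) c
        have h2 := hdV s
        linarith
      · rintro _ ⟨s, hs, rfl⟩
        rw [hij]
        exact (P.T_arc h j hs).2
    rw [hcn]
    refine vtx (j + 1) ?_ ?_
    · have h1 := dist_triangle (V (j + 1)) (V j) c
      have h2 := hC.dist_succ j
      linarith
    · rw [← P.poly.right j, hij]
      exact (P.T_arc h j right_mem_uIcc).2

end Chn758

/-! ### the assembly -/

/-- the tip of the side of `V 0` between `V (-1)` and `V 1` -/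
def TipI (U : Fin 6 → Set ℂ) (T : ℂ → Set (Fin 6)) (f : ℂ → Set (Fin 6)) : Prop :=
  ∀ {Z : Set ℂ} {c : ℂ} {R δ₀ : ℝ}, DSt U T Z f c R δ₀ → ∀ (V : ℤ → ℂ) (l : ℤ → Fin 6)
  (name : ℤ → Fin 6 → Fin 6), ChI nxR802 T NoI V l name → (∀ j, l j = 2) →
  dist (V 0) c ≤ R - 5 → ∃ v, dist v (V 1) = 1 ∧ T v = {name 0 1, name 0 4, name 0 5} ∧
    PtD T Z f c R v

/-- the inner colour sees nothing -/
theorem chI_NI974 (C : ChI nxR802 T NoI V l name) (hl : ∀ j, l j = 2)
    (D : DSt U T Z f c R δ₀) (hw : QIW T NoI) (G : GaugeI758 T NoI f) {g : Fin 6}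
    (hg : ∀ j, name j 0 = g) (j : ℤ) (hj : dist (V j) c < R - 1) (b d : Fin 6) :
    lamT T Z f δ₀ g (V j) b d = 0 := by
  have h := D.df.irr
  obtain ⟨n, hn, hper⟩ := ChI974.period h hw C hl D.df.fin
  have K : H974.StayC T g V (fun j => name j 1) := ⟨fun j => by
    have h1 := (C.qf j).toQI0
    rw [hg j, (ChI974.outer C hl j).1, (ChI974.outer C hl j).2] at h1
    exact ⟨_, _, h1⟩⟩
  refine K.NI D hn hper (fun j => ?_) j hj b d
  rw [G.qi (C.qf j), (ChI974.outer C hl j).1, (ChI974.outer C hl j).2]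

/-- the tile of a chain is pure -/
theorem chI_pure974
    (hp : ∀ g n V α β O, PgI U T g n V α β O → ∀ x ∈ interior (Tl V), T x = {g}) (C : ChI nxR802 T NoI V l name) {g : Fin 6}
    (hg : ∀ j, name j 0 = g) {n : ℕ} {α β : ℤ → ℝ}
    (P : Pg U T g n V α β (fun j => name j 1)) : ∀ x ∈ interior (Tl V), T x = {g} := by
  refine hp g n V α β (fun j => name j 1) ⟨P, fun j => ⟨_, _, _, _, (C.qf j).dpt⟩, fun j => ?_,
    fun j y hy hT => ?_⟩
  · intro h1
    have h2 := (C.qf j).dpt.ab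
    rw [hg j] at h2
    exact h2 h1.symm
  · have h1 := (C.qf j).inn y hy (by rw [hg j]; exact hT)
    filter_upwards [h1] with w hw
    exact hw.1

/-- **the plane of a polygon** -/
theorem poly_plane974
    (hp : ∀ g n V α β O, PgI U T g n V α β O → ∀ x ∈ interior (Tl V), T x = {g})
    (hw : QIW T NoI) (G : GaugeI758 T NoI f)
    (FA : ∀ V l name, ChI nxR802 T NoI V l name → Fac758 U T f V name) (D : DSt U T Z f c R δ₀) (C : ChI nxR802 T NoI V l name)
    (hl : ∀ j, l j = 2) {g : Fin 6} (hg : ∀ j, name j 0 = g) {n : ℕ} {α β : ℤ → ℝ}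
    (P : Pg U T g n V α β (fun j => name j 1)) :
    ∃ N : Ch, RPN N ∧ (∀ j t x y, N {name j t, name j x, name j y} = tabA t x y) ∧
      ∀ x ∈ Tl V, dist x c ≤ R - 7 → ∀ i ∈ T x, i ≠ g → ∀ b d, i ≠ b → i ≠ d → b ≠ d →
        lamT T Z f δ₀ i x b d = N {i, b, d} := by
  have h := D.df.irr
  have hC := C.chn758 h hw G
  obtain ⟨N, hN, hNt⟩ := hC.plane974 hl
  refine ⟨N, hN, hNt, fun x hx hxc i hi hig b d hb hd hbd => ?_⟩
  exact hC.tile974 D (FA V l name C) hl hNt hg P
    (fun j hj b d => chI_NI974 C hl D hw G hg j hj b d) (fun x hx => P.frontier_cases h hx)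
    (chI_pure974 hp C hg P) hx hxc hi hig hb hd hbd

/-- **No all-STAY chain**, from `TipI` -/
theorem stayEnd974 (h : DF U T) (hN : NoComp T)
    (hp : ∀ g n V α β O, PgI U T g n V α β O → ∀ x ∈ interior (Tl V), T x = {g})
    (hw : QIW T NoI) (G : GaugeI758 T NoI f)
    (FA : ∀ V l name, ChI nxR802 T NoI V l name → Fac758 U T f V name)
    (SA : ∀ V l name, ChI nxR802 T NoI V l name → ∀ j, l j = 2)
    (HV : TipI U T f) (C : ChI nxR802 T NoI V l name) : False := by
  have W : StW T f := StW.of hw G SA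
  obtain ⟨Z, δ₀, D⟩ := h.exists_DS G.ch (V 0) 20
  obtain ⟨v, hv1, hTv, P⟩ := HV D V l name C (SA V l name C) (by rw [dist_self]; norm_num)
  have hvc : dist v (V 0) ≤ 2 := by
    have h1 := dist_triangle v (V 1) (V 0)
    have h2 := (C.qf 0).toQI0.dist1
    rw [zero_add] at h2
    linarith
  have hball : ∀ x ∈ closedBall v 1, dist x (V 0) ≤ 3 := fun x hx => by
    have h1 := dist_triangle x v (V 0)
    have h2 := mem_closedBall.1 hx
    linarith
  -- the planes
  have hpl : ∀ k : PzI U T, ∃ N : Ch, RPN N ∧ ∀ x ∈ k.1.2, dist x (V 0) ≤ 20 - 7 → ∀ i ∈ T x,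
      i ≠ k.1.1 → ∀ b d, i ≠ b → i ≠ d → b ≠ d → lamT T Z f δ₀ i x b d = N {i, b, d} := by
    rintro ⟨⟨g, Q⟩, W, l', name', n, α, β, C', hl', hg, P', hQ⟩
    obtain ⟨N, hN, -, hst⟩ := poly_plane974 hp hw G FA D C' hl' hg P'
    refine ⟨N, hN, fun x hx => ?_⟩
    have hQ' : Q = Tl W := hQ
    exact hst x (by rw [← hQ']; exact hx)
  choose Nk hNk hstk using hpl
  -- the faces of a three coloured point
  have hthree : (T v).ncard = 3 := P.three
  have hvQ : ∀ k : PzI U T, v ∉ k.1.2 := by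
    rintro ⟨⟨g, Q⟩, W, l', name', n, α, β, C', hl', hg, P', hQ⟩ hv
    have hQ' : Q = Tl W := hQ
    have hv : v ∈ Tl W := by rw [← hQ']; exact hv
    by_cases hi : v ∈ interior (Tl W)
    · rw [chI_pure974 hp C' hg P' v hi, Set.ncard_singleton] at hthree
      omega
    · rcases P'.frontier_cases h.irr ⟨subset_closure hv, hi⟩ with ⟨j, hj⟩ | ⟨j, t, -, -, hT⟩
      · rw [hj, (C'.qf j).ord0] at hthree
        omega
      · rw [hT] at hthree
        have h3 : ({g, name' j 1} : Set (Fin 6)).ncard = 3 := hthree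
        have h4 := Set.ncard_insert_le g ({name' j 1} : Set (Fin 6))
        rw [Set.ncard_singleton, h3] at h4
        omega
  have hout : ∀ x, (∀ k : PzI U T, x ∉ k.1.2) → OffA T f x ∧ ∀ a b m n, ¬ DPt T x a b m n := by
    intro x hk
    have hq : ∀ {z V1 V2 : ℂ} {a b m n e g : Fin 6}, QI T NoI z a b m n e g V1 V2 →
        x ≠ z ∧ x ≠ V1 ∧ x ≠ V2 ∧ x ∉ closure (S5.H767.Ex T z {a, b}) := fun q =>
      pzI_out h.irr hw h.fin SA hk q
    refine ⟨fun z a b m n hz hd hzx => ?_, fun a b m n hz => ?_⟩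
    · obtain ⟨a', b', m', n', e, g, V1, V2, q⟩ := hw.qf hz
      have h1 := (hq q).2.2.2
      have h2 : T z \ f z = {a', b'} := by rw [G.qi q]; exact q.dpt.diff758
      rw [← hd, h2]
      exact h1
    · obtain ⟨a', b', m', n', e, g, V1, V2, q⟩ := hw.qf hz
      exact (hq q).1 rfl
  have A : PolA T Z f δ₀ v (fun k : PzI U T => k.1.2) (fun k => k.1.1) Nk := by
    refine ⟨hNk, fun x _ => pzI_lf h.irr h.fin x, fun x _ k hk => pzI_op h.irr x k hk,
      fun x _ k k' hk hk' hne => absurd (pzI_dis h.irr x k k' hk hk') hne, ?_, ?_, ?_⟩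
    · intro x hx k hk i hi hik b d hb hd hbd
      exact hstk k x hk (by have := hball x hx; linarith) i hi hik b d hb hd hbd
    · intro x hx hk i hi j hj hij hdg
      have hxc := hball x hx
      exact D.agr_W W (by linarith) (hout x hk).1 (hout x hk).2 hi hj hij hdg
    · intro x hx hk i j a b d e hn hi hj h1 h2
      have hxc := hball x hx
      exact D.r1_553 W hN (by linarith) (hout x hk).1 (hout x hk).2 hn hi hj h1 h2
  -- the polygon of the chain
  have hl0 := SA V l name C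
  obtain ⟨n, α, β, P0⟩ := ChI974.pg h.irr hw C hl0 h.fin
  have hg := ChI974.inner C hl0
  obtain ⟨N, hN, hNt, hst⟩ := poly_plane974 hp hw G FA D C hl0 hg P0
  let k₀ : PzI U T := ⟨(name 0 0, Tl V), V, l, name, n, α, β, C, hl0, hg, P0, rfl⟩
  have hx₀ : V 1 ∈ closedBall v 1 := by
    rw [mem_closedBall, dist_comm, hv1]
  have hk₀ : V 1 ∈ k₀.1.2 := P0.poly.mem_tl h.irr 1
  have hi1 : name 1 1 ∈ T (V 1) := by rw [(C.qf 1).pal]; simp
  have hi2 : name 1 1 ≠ name 0 0 := by
    rw [← hg 1]; exact (C.qf 1).dpt.ab.symm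
  have hVc : dist (V 1) (V 0) ≤ 20 - 7 := by
    have h2 := (C.qf 0).toQI0.dist1
    rw [zero_add] at h2
    linarith
  have hLk : Lk (Nk k₀) = Lk N := by
    refine Lk_inj (hNk k₀) hN (i := name 1 1) ?_
    rw [← lamT_eq_Lk (hstk k₀ (V 1) hk₀ hVc _ hi1 hi2),
      ← lamT_eq_Lk (hst (V 1) hk₀ hVc _ hi1 hi2)]
  have hnd := (C.qf 0).nd
  have hnd' := hnd
  simp only [List.nodup_cons, List.mem_cons, List.not_mem_nil, or_false, not_or,
    List.nodup_nil, and_true, not_false_eq_true] at hnd'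
  refine A.stateA_false D (by linarith) P (fun k hk _ => hvQ k hk) hx₀ hk₀
    (a := name 0 1) (b := name 0 4) (g := name 0 5) (d := name 0 0) (e := name 0 2)
    (h := name 0 3) ?_ hTv (Or.inl ?_)
  · simp only [List.nodup_cons, List.mem_cons, List.not_mem_nil, or_false, not_or,
      List.nodup_nil, and_true, not_false_eq_true]
    tauto
  · have h14 : name 0 1 ≠ name 0 4 := by tauto
    have h15 : name 0 1 ≠ name 0 5 := by tauto
    have h45 : name 0 4 ≠ name 0 5 := by tauto
    have h1 := congrFun (congrFun (congrFun hLk (name 0 1)) (name 0 4)) (name 0 5)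
    rw [Lk_eq h14 h15 h45, Lk_eq h14 h15 h45, hNt] at h1
    rw [h1]
    decide

end Vale.Agent.P032.Six
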