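import Vale.Agent.P032.H553.PtV
import Vale.Agent.P032.H780.TipI
import Vale.Agent.P032.H974.StayEnd

/-!
# P032, block X: `TipI` from the ring at the tip

`RingV` : the odd ring at the tip of the side of `V 0`.  `tipI_of974 : RingV → TipI`.
-/

open Set Filter Topology Metric

noncomputable section

namespace Vale.Agent.P032.Six

open Vale.Agent.P032.S5 Vale.Agent.P032.S5.H767 Vale.Agent.P032.H961

variable {U : Fin 6 → Set ℂ} {T : ℂ → Set (Fin 6)} {f : ℂ → Set (Fin 6)} {Z : Set ℂ} {c : ℂ}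
  {R δ₀ : ℝ} {V : ℤ → ℂ} {l : ℤ → Fin 6} {name : ℤ → Fin 6 → Fin 6}

/-- the odd ring at the tip of the side of `V 0` between `V (-1)` and `V 1` -/
def RingV (U : Fin 6 → Set ℂ) (T : ℂ → Set (Fin 6)) (f : ℂ → Set (Fin 6)) : Prop :=
  ∀ {Z : Set ℂ} {c : ℂ} {R δ₀ : ℝ}, DSt U T Z f c R δ₀ → ∀ (V : ℤ → ℂ) (l : ℤ → Fin 6)
  (name : ℤ → Fin 6 → Fin 6), ChI nxR802 T NoI V l name → (∀ j, l j = 2) →
  dist (V 0) c ≤ R - 5 → RingOdd T Z f (V (0 + 1) + V (0 - 1) - V 0)

/-- a three coloured point is on no closed connecting arc -/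
theorem offA_three974 (h : Irr U T) (hw : QIW T NoI) (G : GaugeI758 T NoI f) {v : ℂ}
    (h3 : (T v).ncard = 3) : OffA T f v := by
  intro z a b m n hz hd hzv hcl
  obtain ⟨a', b', m', n', e, g, V1, V2, q⟩ := hw.qf hz
  have h2 : T z \ f z = {a', b'} := by rw [G.qi q]; exact q.dpt.diff758
  rw [← hd, h2] at hcl
  rcases q.toQI0.cases h hcl with h4 | h4 | h4
  · rw [h4, q.ord1] at h3
    omega
  · rw [h4, q.ord2] at h3
    omega
  · have h5 : T v = {a', b'} := ex_self h4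
    rw [h5, Set.ncard_pair q.dpt.ab] at h3
    omega

/-- **`TipI` from the ring at the tip** -/
theorem tipI_of974 (h : DF U T) (hN : NoComp T) (hw : QIW T NoI) (G : GaugeI758 T NoI f)
    (SA : ∀ V l name, ChI nxR802 T NoI V l name → ∀ j, l j = 2) (HV : RingV U T f) :
    TipI U T f := by
  intro Z c R δ₀ D V l name C hl hc
  have W : StW T f := StW.of hw G SA
  obtain ⟨h1, h2, hT, k1, k2, -, -⟩ := C.tipN780 h.irr hw hl 0
  obtain ⟨d0, d2, p0, p1, p2, p3, -, -⟩ := C.nb780 hl 0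
  obtain ⟨q0, q1, q2, q3, -, -⟩ := C.nm780 hl 0
  rw [q2, q3, Set.pair_comm] at k1
  rw [p2, p3] at k2
  have H := (C.qf 0).toQI0
  have hnd := H.nd
  simp only [List.nodup_cons, List.mem_cons, List.not_mem_nil, or_false, not_or,
    List.nodup_nil, and_true, not_false_eq_true] at hnd
  have h45 : name 0 4 ≠ name 0 5 := by tauto
  have h3 : (T (V (0 + 1) + V (0 - 1) - V 0)).ncard = 3 :=
    Set.ncard_eq_three.2 ⟨_, _, _, by tauto, by tauto, h45, hT⟩
  have hne2 : V (0 - 1) + V (0 + 1) ≠ 2 * (V (0 + 1) + V (0 - 1) - V 0) := by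
    intro he
    have h4 : V (0 + 1) - V (0 - 1) = 2 * (V (0 + 1) - V 0) := by linear_combination he
    have h5 := H.dist12
    rw [dist_eq_norm, h4, norm_mul, ← dist_eq_norm, H.dist1] at h5
    norm_num at h5
  have hvc : dist (V (0 + 1) + V (0 - 1) - V 0) c ≤ R - 1 := by
    have e1 := dist_triangle (V (0 + 1) + V (0 - 1) - V 0) (V (0 + 1)) c
    have e2 := dist_triangle (V (0 + 1)) (V 0) c
    have e3 := H.dist1
    linarith
  refine ⟨V (0 + 1) + V (0 - 1) - V 0, h1, hT, ?_⟩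
  exact D.ptD553 W hN hvc (offA_three974 h.irr hw G h3) (W1 := V (0 - 1)) (W2 := V (0 + 1))
    d0.swap d2.swap.swap12 k2 k1 H.ne12.symm hne2 h45 hT (HV D V l name C hl hc)

end Vale.Agent.P032.Six
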