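import Vale.Agent.P032.H974.HexR
import Vale.Agent.P032.H180.Viol

/-!
# P032, block X: neighbours of a full point of the circle about a three coloured point

`fullA974`, `fullB974` : a full two-pair point and its neighbours; `DSt.nbr974`, `DSt.cc974` : all types;
`DSt.inc974` : incomparable letters at a full time, or a swap.
-/

open Set Filter Topology Metric

noncomputable section

namespace Vale.Agent.P032.Six

open Vale.Agent.P032.S5 Vale.Agent.P032.Carr Vale.Agent.P032.S5.H767 Vale.Agent.P032.H538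
  Vale.Agent.P032.H227
open Vale.Agent.P032.H180 (Frz HexZ Qt Qt_of_ne Qt_of_eq om pt_six continuous_pt)
open Vale.Agent.P032.S5.H180 (Qx rx Qx_univ usc_pt Bs)
open Vale.Agent.P032.S5.H57 (not_line arcF no_partner lineF two_out three_of compl_sub rule3 ruleTo
  ruleFrom nbrZ)
open Vale.Agent.P032.H961

variable {U : Fin 6 → Set ℂ} {T : ℂ → Set (Fin 6)} {f : ℂ → Set (Fin 6)} {Z : Set ℂ} {c : ℂ}
  {R δ₀ : ℝ} {x y z : ℂ} {col : Fin 3 → Fin 6}

/-- a full two-pair point: its apex colour is not at a neighbour with at most three colours -/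
theorem fullA974 (h : Irr U T) {Y V V1 V2 : ℂ} {a b p q e g : Fin 6}
    (H : QI0 T NoI V a b p q e g V1 V2) (hVx : dist V x = 1) (hYx : dist Y x = 1)
    (hYV : dist Y V = 1) (hx3 : (T x).ncard = 3) (hfull : (T x)ᶜ ⊆ T V) (hp : p ∉ T x)
    (hq : q ∉ T x) (hY3 : (T Y).ncard ≤ 3) (hYf : ¬ (T x)ᶜ ⊆ T Y) {r : Fin 6}
    (hr : r = a ∨ r = b) (hrx : r ∉ T x) (hrY : r ∈ T Y) : False := by
  have hf : ∀ w, dist w x = 1 → ¬ T w ⊆ T x := fun w hw hs => h.not_sub hw hx3.le hs
  have hxV : dist x V = 1 := by rw [dist_comm]; exact hVx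
  have h1 := lineF h hf hYx hYV hxV (hfull hrx)
  obtain ⟨n, hn, hn'⟩ := Set.not_subset.1 h1
  have hnr : n ≠ r := fun h2 => hn' (Or.inl h2)
  have hnx : n ∉ T x := fun h2 => hn' (Or.inr h2)
  have key : ∀ {p q : Fin 6} {V1 V2 : ℂ}, QI0 T NoI V a b p q e g V1 V2 → p ∉ T x → q ∉ T x →
      p ∈ T Y → False := by
    intro p q V1 V2 H hp hq hpY
    have hD := H.dpt
    have hpq : p ≠ q := hD.cd
    have hpr : p ≠ r := by
      rcases hr with rfl | rfl
      · exact hD.ac.symm
      · exact hD.bc.symm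
    have hqr : q ≠ r := by
      rcases hr with rfl | rfl
      · exact hD.ad.symm
      · exact hD.bd.symm
    have hc := compl_sub hx3 hp hq hrx hpq hpr hqr
    have hqY : q ∉ T Y := by
      intro hqY
      apply hYf
      rw [hc]
      rintro i (rfl | rfl | rfl) <;> assumption
    obtain ⟨r', hr'r, hr'ab, hab⟩ : ∃ r', r' ≠ r ∧ (r' = a ∨ r' = b) ∧
        (({a, b} : Set (Fin 6)) = {r, r'}) := by
      rcases hr with rfl | rfl
      · exact ⟨b, hD.ab.symm, Or.inr rfl, rfl⟩
      · exact ⟨a, hD.ab, Or.inl rfl, Set.pair_comm _ _⟩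
    have hr'p : r' ≠ p := by
      rcases hr'ab with rfl | rfl
      · exact hD.ac
      · exact hD.bc
    have hr'q : r' ≠ q := by
      rcases hr'ab with rfl | rfl
      · exact hD.ad
      · exact hD.bd
    have hr'V : r' ∈ T V := by
      rw [hD.pal]
      rcases hr'ab with rfl | rfl <;> simp
    by_cases hr'Y : r' ∈ T Y
    · have e1 := three_of hY3 hrY hpY hr'Y hpr.symm hr'r.symm hr'p.symm
      have hcl : Y ∉ closure (Ex T V {a, b}) := by
        intro hcl
        have hY4 : (T Y).ncard = 3 := by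
          rw [e1]
          exact Set.ncard_eq_three.2 ⟨r, p, r', hpr.symm, hr'r.symm, hr'p.symm, rfl⟩
        rcases H.cases h hcl with h2 | h2 | h2
        · rw [h2, H.ord1] at hY4
          omega
        · rw [h2, H.ord2] at hY4
          omega
        · have h3 : T Y = {a, b} := ex_self h2
          rw [h3, Set.ncard_pair hD.ab] at hY4
          omega
      have h2 := (H383.full_near h hD.swap34 hcl).self_of_nhdsWithin
        (show Y ∈ sphere V 1 from hYV)
      apply h2
      rw [e1]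
      have ha : ∀ i, i ∈ ({r, r'} : Set (Fin 6)) → i ∈ ({a, b, p} : Set (Fin 6)) := by
        intro i hi
        rw [← hab] at hi
        rcases hi with rfl | hi
        · exact Or.inl rfl
        · exact Or.inr (Or.inl hi)
      rintro i (rfl | rfl | hi)
      · exact ha _ (Or.inl rfl)
      · exact Or.inr (Or.inr rfl)
      · exact ha _ (Or.inr hi)
    · have hns : ∀ w, dist w V = 1 → T w ⊆ T Y → ¬ T w ⊆ T V := by
        intro w hw hwY hwV
        obtain ⟨e, -, heV, hloc, hew, -, -⟩ := h.arc_of_sub hw hwV univ_mem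
        rcases h.twoPairs hD e heV hloc (hew.trans hwV) with h5 | h5
        · apply hr'Y
          apply hwY
          apply hew
          rw [h5, hab]
          exact Or.inr rfl
        · apply hqY
          apply hwY
          apply hew
          rw [h5]
          exact Or.inr rfl
      obtain ⟨r1, hr1, hr1V⟩ := Set.not_subset.1 (hns Y hYV Subset.rfl)
      have hr1r : r ≠ r1 := fun e => hr1V (e ▸ hfull hrx)
      have hr1p : p ≠ r1 := fun e => hr1V (e ▸ hfull hp)
      have hr1x : r1 ∈ T x := by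
        by_contra h2
        exact hr1V (hfull h2)
      have e1 := three_of hY3 hrY hpY hr1 hpr.symm hr1r hr1p
      refine no_partner h (u := V) (p := Y) (v := x) (t := r1) hYV ?_ hYx hVx hr1x
      filter_upwards [mem_nhdsWithin_of_mem_nhds (h.nhd Y), self_mem_nhdsWithin] with w h3 h4
      obtain ⟨r2, hr2, hr2V⟩ := Set.not_subset.1 (hns w h4 h3)
      have h5 := h3 hr2
      rw [e1] at h5
      rcases h5 with rfl | rfl | rfl
      · exact absurd (hfull hrx) hr2V
      · exact absurd (hfull hp) hr2V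
      · exact hr2
  have hD := H.dpt
  have hc : (T x)ᶜ = {p, q, r} := compl_sub hx3 hp hq hrx hD.cd (by
    rcases hr with rfl | rfl
    · exact hD.ac.symm
    · exact hD.bc.symm) (by
    rcases hr with rfl | rfl
    · exact hD.ad.symm
    · exact hD.bd.symm)
  have hn2 : n ∈ ({p, q, r} : Set (Fin 6)) := by
    rw [← hc]
    exact hnx
  rcases hn2 with rfl | rfl | hn2
  · exact key H hp hq hn
  · exact key H.mirror hq hp hn
  · exact hnr hn2

/-- a full two-pair point `y` and a linked two-pair point `z` -/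
theorem fullB974 (h : Irr U T) (hx3 : (T x).ncard = 3) {a b p q g : Fin 6}
    (hnd : [a, b, p, q, g].Nodup) (hy : DPt T y a b p q) (hz : DPt T z a p g b)
    (hfz : f z = {g, b}) (c2 : y ∈ closure (Ex T z {a, p})) (hyx : dist y x = 1)
    (hzx : dist z x = 1) (hyz : dist y z = 1) (hfull : (T x)ᶜ ⊆ T y) (hp : p ∉ T x)
    (hq : q ∉ T x) : SwV180 T f x z y ∧ ¬ (T x)ᶜ ⊆ T z := by
  simp only [List.nodup_cons, List.mem_cons, List.not_mem_nil, or_false, not_or, List.nodup_nil,
    and_true, not_false_eq_true] at hnd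
  obtain ⟨⟨hab, hap, haq, hag⟩, ⟨hbp, hbq, hbg⟩, ⟨hpq, hpg⟩, hqg⟩ := hnd
  have hqz : q ∉ T z := by
    rw [hz.pal]
    simp only [mem_insert_iff, mem_singleton_iff, not_or]
    exact ⟨Ne.symm haq, Ne.symm hpq, hqg, Ne.symm hbq⟩
  have hgy : g ∉ T y := by
    rw [hy.pal]
    simp only [mem_insert_iff, mem_singleton_iff, not_or]
    exact ⟨Ne.symm hag, Ne.symm hbg, Ne.symm hpg, Ne.symm hqg⟩
  have hgx : g ∈ T x := by
    by_contra h1
    exact hgy (hfull h1)
  have hay : a ∈ T y := by rw [hy.pal]; simp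
  have hby : b ∈ T y := by rw [hy.pal]; simp
  have hpy : p ∈ T y := by rw [hy.pal]; simp
  refine ⟨?_, fun h1 => hqz (h1 hq)⟩
  by_cases hax : a ∈ T x
  · exfalso
    have hz' : DPt T z p a b g := hz.swap12.swap34
    refine mixed180 h (y := z) (z := y) hz' (by rw [dist_comm]; exact hzx) hyz
      (by rw [dist_comm]; exact hyx) hx3.le hax hgx hpy ?_
    filter_upwards [mem_nhdsWithin_of_mem_nhds (h.nhd z), self_mem_nhdsWithin] with w h1 h2
    by_contra hcon
    push Not at hcon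
    have h3 : T w ⊆ {p, b} := by
      intro i hi
      have h4 := h1 hi
      rw [hz'.pal] at h4
      rcases h4 with h4 | h4 | h4 | h4
      · exact Or.inl h4
      · exact absurd (h4 ▸ hi) hcon.1
      · exact Or.inr h4
      · rw [mem_singleton_iff] at h4
        exact absurd (h4 ▸ hi) hcon.2
    have h4 : T w ⊆ T y := by
      intro i hi
      rcases h3 hi with h5 | h5
      · exact h5 ▸ hpy
      · rw [mem_singleton_iff] at h5
        exact h5 ▸ hby
    have h2' : dist w y = 1 := h2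
    obtain ⟨e, -, heV, hloc, hew, -, -⟩ := h.arc_of_sub h2' h4 univ_mem
    rcases h.twoPairs hy e heV hloc (hew.trans h4) with h5 | h5
    · exact hcon.1 (hew (by rw [h5]; simp))
    · have h6 : q ∈ T w := hew (by rw [h5]; simp)
      rcases h3 h6 with h7 | h7
      · exact hpq h7.symm
      · rw [mem_singleton_iff] at h7
        exact hbq h7.symm
  · have hc := compl_sub hx3 hp hq hax hpq (Ne.symm hap) (Ne.symm haq)
    have hbx : b ∈ T x := by
      by_contra h1
      have h2 : b ∈ (T x)ᶜ := h1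
      rw [hc] at h2
      rcases h2 with h2 | h2 | h2
      · exact hbp h2
      · exact hbq h2
      · exact hab h2.symm
    exact ⟨g, b, a, p, hz.swap, hfz, hgx, hbx, hax, hp, hay, hpy, c2⟩

/-- the data of the ring at `x` -/
structure RD974 (U : Fin 6 → Set ℂ) (T : ℂ → Set (Fin 6)) (Z : Set ℂ) (f : ℂ → Set (Fin 6))
    (c : ℂ) (R δ₀ : ℝ) (x : ℂ) : Prop where
  D : DSt U T Z f c R δ₀
  hw : QIW T NoI
  G : GaugeI758 T NoI f
  hS : ∀ V l name, ChI nxR802 T NoI V l name → ∀ j, l j = 2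
  W : StW T f
  h3 : (T x).ncard = 3
  B : H57.RC T Z f δ₀ x (T x)
  fl : ∀ y, dist y x = 1 → (T x)ᶜ ⊆ T y → 4 ≤ (T y).ncard ∧ f y ⊆ (T x)ᶜ

namespace RD974

variable (E : RD974 U T Z f c R δ₀ x)
include E

/-- a full two-pair point and its neighbours -/
theorem two (hyx : dist y x = 1) (hzx : dist z x = 1) (hyz : dist y z = 1)
    (hfull : (T x)ᶜ ⊆ T y) (hD : ∃ a b m n, DPt T y a b m n) :
    ¬ (T x)ᶜ ⊆ T z ∧ (hp T f (T x) y ∈ T z → SwV180 T f x z y) := by
  obtain ⟨a, b, c', d, hD⟩ := hD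
  have h := E.D.df.irr
  obtain ⟨V, l, name, C, hV⟩ := exists_chIR E.hw hD
  have hl := E.hS V l name C
  obtain ⟨d1, d2, q0, q1, q2, q3, -, -⟩ := C.nb780 hl 0
  obtain ⟨p0, p1, p2, p3, -, -⟩ := C.nm780 hl 0
  have H := C.qf 0
  have hnd := H.nd
  have hnd' : [name 0 0, name 0 1, name 0 2, name 0 3, name 0 5].Nodup ∧
      [name 0 0, name 0 1, name 0 3, name 0 2, name 0 4].Nodup := by
    simp only [List.nodup_cons, List.mem_cons, List.not_mem_nil, or_false, not_or,
      List.nodup_nil, and_true, not_false_eq_true] at hnd ⊢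
    obtain ⟨⟨h01, h02, h03, h04, h05⟩, ⟨h12, h13, h14, h15⟩, ⟨h23, h24, h25⟩, ⟨h34, h35⟩, h45⟩ :=
      hnd
    exact ⟨⟨⟨h01, h02, h03, h05⟩, ⟨h12, h13, h15⟩, ⟨h23, h25⟩, h35⟩,
      ⟨h01, h03, h02, h04⟩, ⟨h13, h12, h14⟩, ⟨Ne.symm h23, h34⟩, h24⟩
  subst hV
  have hzy : dist z (V 0) = 1 := by rw [dist_comm]; exact hyz
  have hf0 := E.G.qi H
  have hfx := (E.fl _ hyx hfull).2
  rw [hf0] at hfx
  have hmx : name 0 2 ∉ T x := hfx (Or.inl rfl)
  have hnx : name 0 3 ∉ T x := hfx (Or.inr rfl)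
  by_cases hz4 : 4 ≤ (T z).ncard
  · rcases H.ord z hzy hz4 with h1 | h1 | h1
    · have H1 := C.qf (0 + 1)
      have hf1 := E.G.qi H1
      rw [p2, p3] at hf1
      have c2 := H1.toQI0.mem2 h
      rw [p0, p1, show (0 : ℤ) + 1 - 1 = 0 by norm_num] at c2
      subst h1
      have h2 := fullB974 h E.h3 hnd'.1 H.dpt d2 hf1 c2 hyx hzx hyz hfull hmx hnx
      exact ⟨h2.2, fun _ => h2.1⟩
    · have H1 := C.qf (0 - 1)
      have hf1 := E.G.qi H1
      rw [q2, q3, Set.pair_comm] at hf1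
      have c2 := H1.toQI0.mem1 h
      rw [q0, q1, show (0 : ℤ) - 1 + 1 = 0 by norm_num] at c2
      subst h1
      have h2 := fullB974 h E.h3 hnd'.2 H.dpt.swap34 d1.swap34 hf1 c2 hyx hzx hyz hfull hnx hmx
      exact ⟨h2.2, fun _ => h2.1⟩
    · exact absurd h1 id
  · have hzf : ¬ (T x)ᶜ ⊆ T z := fun h1 => hz4 (E.fl z hzx h1).1
    refine ⟨hzf, fun hr => ?_⟩
    exfalso
    obtain ⟨-, a1, a2, a3, -⟩ := rc_apex974 E.B hyx hfull
    have hr2 : hp T f (T x) (V 0) = name 0 0 ∨ hp T f (T x) (V 0) = name 0 1 := by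
      rw [H.dpt.pal] at a1
      rcases a1 with a1 | a1 | a1 | a1
      · exact Or.inl a1
      · exact Or.inr a1
      · exact absurd (by rw [hf0, a1]; exact Or.inl rfl) a2
      · exact absurd (by rw [hf0, a1]; exact Or.inr rfl) a2
    exact fullA974 h H.toQI0 hyx hzx hzy E.h3 hfull hmx hnx (by omega) hzf hr2 a3 hr

theorem bs : Bs U T x (T x) :=
  ⟨E.D.df.irr, E.h3, Subset.rfl, fun _ hw' hs => E.D.df.irr.not_sub hw' E.h3.le hs, Or.inl rfl⟩

theorem no_harm {D' : Set (Fin 6)} (hD : Six.Harm T x D') : False := by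
  have := hD.card
  rw [E.h3] at this
  norm_num at this

/-- a full harmless point and its neighbours -/
theorem harm (hyx : dist y x = 1) (hzx : dist z x = 1) (hyz : dist y z = 1)
    (hfull : (T x)ᶜ ⊆ T y) {A : Set (Fin 6)} (hA : Six.Harm T y A) (hzf : ¬ (T x)ᶜ ⊆ T z) :
    hp T f (T x) y ∉ T z := by
  intro hr
  have h := E.D.df.irr
  have hfA : f y = A := E.D.ch.harm y A hA
  have hAx : A ⊆ (T x)ᶜ := by
    rw [← hfA]
    exact (E.fl y hyx hfull).2
  have hzy : dist z y = 1 := by rw [dist_comm]; exact hyz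
  have hfull' : ∀ w, dist w x = 1 → ¬ T w ⊆ T x := fun w hw' hs => h.not_sub hw' E.h3.le hs
  obtain ⟨-, a1, a2, a3, -⟩ := rc_apex974 E.B hyx hfull
  have key : T z \ T x ⊆ A := by
    by_cases hz4 : 4 ≤ (T z).ncard
    · rcases E.D.df.harm_or hz4 with ⟨B, hB⟩ | ⟨a', b', c', d, hD⟩
      · exact (E.bs.nbrZZ hyx hzx hzy hA hB (E.D.df.ev_harm180 hB) hfull hAx hzf
          (fun h1 => (DSt.hup E.W E.D.df) z y A B hB hA hzy h1)
          fun D' hD' => (E.no_harm hD').elim).1
      · exact (E.W.sep hA hzy hD).elim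
    · exact (nbrZ h E.h3 Subset.rfl hfull' hzx hyx hzy (by omega) hA.h1 hfull hAx hA.cardA
        hzf).1
  exact a2 (by rw [hfA]; exact key ⟨hr, a3⟩)

/-- two full points at distance one -/
theorem cc (hyx : dist y x = 1) (hzx : dist z x = 1) (hyz : dist y z = 1)
    (hfy : (T x)ᶜ ⊆ T y) (hfz : (T x)ᶜ ⊆ T z) : hp T f (T x) y ≠ hp T f (T x) z ∧
      (∃ A, Six.Harm T y A) ∧ ∃ A, Six.Harm T z A := by
  have hzy : dist z y = 1 := by rw [dist_comm]; exact hyz
  rcases E.D.df.harm_or (E.fl y hyx hfy).1 with ⟨A, hA⟩ | hD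
  · rcases E.D.df.harm_or (E.fl z hzx hfz).1 with ⟨B, hB⟩ | hD
    · refine ⟨fun he => ?_, ⟨A, hA⟩, ⟨B, hB⟩⟩
      have hfA : f y = A := E.D.ch.harm y A hA
      have hfB : f z = B := E.D.ch.harm z B hB
      have hAx : A ⊆ (T x)ᶜ := by
        rw [← hfA]
        exact (E.fl y hyx hfy).2
      have hBx : B ⊆ (T x)ᶜ := by
        rw [← hfB]
        exact (E.fl z hzx hfz).2
      refine E.bs.ccZZ hyx hzx hzy hA hB hfy hfz hBx
        (fun h1 => (DSt.hup E.W E.D.df) y z B A hA hB hyz h1) hAx ?_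
      obtain ⟨-, -, a2, a3, -⟩ := rc_apex974 E.B hyx hfy
      obtain ⟨-, -, -, -, b4⟩ := rc_apex974 E.B hzx hfz
      apply Set.eq_of_subset_of_ncard_le
      · intro i hi
        rcases b4 i (hAx hi) with h5 | h5
        · rw [← he] at h5
          rw [hfA] at a2
          exact absurd (h5 ▸ hi) a2
        · rw [← hfB]
          exact h5
      · rw [hA.cardA, hB.cardA]
      · exact Set.toFinite _
    · exact absurd hfy (E.two hzx hyx hzy hfz hD).1
  · exact absurd hfz (E.two hyx hzx hyz hfy hD).1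

/-- the apex colour of a full point at a neighbour which is not full: a swap -/
theorem nb (hyx : dist y x = 1) (hzx : dist z x = 1) (hyz : dist y z = 1)
    (hfy : (T x)ᶜ ⊆ T y) (hfz : ¬ (T x)ᶜ ⊆ T z) (hr : hp T f (T x) y ∈ T z) :
    SwV180 T f x z y := by
  rcases E.D.df.harm_or (E.fl y hyx hfy).1 with ⟨A, hA⟩ | hD
  · exact absurd hr (E.harm hyx hzx hyz hfy hA hfz)
  · exact (E.two hyx hzx hyz hfy hD).2 hr

/-- **Field `inc`** -/
theorem inc (hcol : ∀ i, i ∉ T x ↔ ∃ l, i = col l) (hinj : Function.Injective col) {t s : ℝ}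
    (hd : dist (Vale.Agent.P032.H180.pt x t) (Vale.Agent.P032.H180.pt x s) = 1)
    (hf : Qx T x col t = univ ∨ Qx T x col s = univ)
    (hsub : Qt (Qx T x col) (rx T f (T x) x col) t ⊆ Qt (Qx T x col) (rx T f (T x) x col) s) :
    SwV180 T f x (Vale.Agent.P032.H180.pt x t) (Vale.Agent.P032.H180.pt x s) ∨
      SwV180 T f x (Vale.Agent.P032.H180.pt x s) (Vale.Agent.P032.H180.pt x t) := by
  have _ := hinj
  have d1 := Vale.Agent.P032.H180.dist_pt x t
  have d2 := Vale.Agent.P032.H180.dist_pt x s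
  have hd' : dist (Vale.Agent.P032.H180.pt x s) (Vale.Agent.P032.H180.pt x t) = 1 := by
    rw [dist_comm]; exact hd
  by_cases ht : Qx T x col t = univ
  · have hS1 := (Qx_univ hcol).1 ht
    rw [Qt_of_eq ht] at hsub
    have h1 : rx T f (T x) x col t ∈ Qt (Qx T x col) (rx T f (T x) x col) s := hsub rfl
    have e1 := rx_spec383 E.B hcol hS1
    by_cases hs : Qx T x col s = univ
    · exfalso
      have hS2 := (Qx_univ hcol).1 hs
      rw [Qt_of_eq hs] at h1
      have h2 : rx T f (T x) x col t = rx T f (T x) x col s := h1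
      refine (E.cc d1 d2 hd hS1 hS2).1 ?_
      rw [← e1, ← rx_spec383 E.B hcol hS2, h2]
    · right
      rw [Qt_of_ne hs] at h1
      refine E.nb d1 d2 hd hS1 (fun h2 => hs ((Qx_univ hcol).2 h2)) ?_
      rw [← e1]
      exact h1
  · have hs := hf.resolve_left ht
    have hS2 := (Qx_univ hcol).1 hs
    rw [Qt_of_ne ht, Qt_of_eq hs] at hsub
    left
    obtain ⟨i, hi, hiS⟩ := Set.not_subset.1 (E.B.full _ d1)
    obtain ⟨l, rfl⟩ := (hcol i).1 hiS
    have h1 : l = rx T f (T x) x col s := hsub hi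
    refine E.nb d2 d1 hd' hS2 (fun h2 => ht ((Qx_univ hcol).2 h2)) ?_
    rw [← rx_spec383 E.B hcol hS2, ← h1]
    exact hi

end RD974

end Vale.Agent.P032.Six
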