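import Vale.Agent.P032.H383.RingW
import Vale.Agent.P032.H553.PtV

/-!
# P032, block X: the record `RC` and the letters `HexW` at a three coloured point, world `StW`

`DSt.full974` : a full point of the circle has four colours and its pair `f` is outside `T x`.
`DSt.rc974`, `RC.apex974`, `RC.hexw974`.
-/

open Set Filter Topology Metric

noncomputable section

namespace Vale.Agent.P032.Six

open Vale.Agent.P032.S5 Vale.Agent.P032.Carr Vale.Agent.P032.S5.Tab Vale.Agent.P032.H538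
open Vale.Agent.P032.H180 (Frz HexZ Qt Qt_of_ne Qt_of_eq om pt_six continuous_pt)
open Vale.Agent.P032.S5.H180 (Qx rx Qx_univ usc_pt)

variable {U : Fin 6 → Set ℂ} {T : ℂ → Set (Fin 6)} {f : ℂ → Set (Fin 6)} {Z : Set ℂ} {c : ℂ}
  {R δ₀ : ℝ} {x : ℂ} {col : Fin 3 → Fin 6}

/-- a full point has four colours, its pair is outside `T x` -/
theorem DSt.full974 (D : DSt U T Z f c R δ₀) (W : StW T f) (hN : NoComp T)
    (h3 : (T x).ncard = 3) : ∀ y, dist y x = 1 → (T x)ᶜ ⊆ T y →
      4 ≤ (T y).ncard ∧ f y ⊆ (T x)ᶜ := by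
  intro y hy hs
  by_contra hcon
  refine W.nof553 D hN h3 y (mem_closedBall.2 hy.le) ⟨hs, fun h4 hf => hcon ⟨h4, hf⟩⟩

/-- the record `RC` -/
theorem DSt.rc974 (D : DSt U T Z f c R δ₀) (W : StW T f) (hN : NoComp T)
    (hx : dist x c ≤ R - 1) (h3 : (T x).ncard = 3)
    (hap : ∀ z, dist z x = 1 → 4 ≤ (T z).ncard → ¬ T z \ f z ⊆ T x) : H57.RC T Z f δ₀ x (T x) :=
  D.rc383 hx h3 hap (D.full974 W hN h3)

/-- the apex is the third colour -/
theorem rc_apex974 (B : H57.RC T Z f δ₀ x (T x)) {z : ℂ} (hzx : dist z x = 1)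
    (hs : (T x)ᶜ ⊆ T z) : z ∈ Z ∧ hp T f (T x) z ∈ T z ∧ hp T f (T x) z ∉ f z ∧
      hp T f (T x) z ∉ T x ∧ (∀ i, i ∉ T x → i = hp T f (T x) z ∨ i ∈ f z) := by
  have hz : z ∈ Z := by
    by_contra hcon
    exact B.nc _ hzx hcon hs
  obtain ⟨h1, h2⟩ := B.hm.apex hz (T x)
  have h3 : hp T f (T x) z ∉ T x := pick_avoid (B.unp z hz hzx)
  refine ⟨hz, h1, h2, h3, fun i hi => ?_⟩
  by_contra hcon
  push Not at hcon
  have c3 : ((T x)ᶜ).ncard = 3 := by
    rw [Set.ncard_compl, B.three]; simp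
  have h4 : insert i (insert (hp T f (T x) z) (f z)) ⊆ (T x)ᶜ :=
    Set.insert_subset hi (Set.insert_subset h3 (B.fz z hz hzx hs))
  have h5 := Set.ncard_le_ncard h4 (Set.toFinite _)
  rw [c3, Set.ncard_insert_of_notMem, Set.ncard_insert_of_notMem h2, B.hm.two z hz] at h5
  · omega
  · rintro (h6 | h6)
    · exact hcon.1 h6
    · exact hcon.2 h6

/-- near a full time -/
theorem rc_lay974 (B : H57.RC T Z f δ₀ x (T x)) (hcol : ∀ i, i ∉ T x ↔ ∃ l, i = col l)
    (hinj : Function.Injective col) {t : ℝ} (ht : Qx T x col t = univ) :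
    ∀ᶠ s in 𝓝 t, (Qx T x col s = univ ∧ rx T f (T x) x col s = rx T f (T x) x col t) ∨
      (Qx T x col s ≠ univ ∧ ∀ i ∈ Qx T x col s, ∀ j ∈ Qx T x col s,
        i = rx T f (T x) x col t ∨ j = rx T f (T x) x col t ∨ i = j) := by
  have hS := (Qx_univ hcol).1 ht
  have hzx := Vale.Agent.P032.H180.dist_pt x t
  obtain ⟨hz, -, -, -, a4⟩ := rc_apex974 B hzx hS
  have h1 : Tendsto (Vale.Agent.P032.H180.pt x) (𝓝 t) (𝓝 (Vale.Agent.P032.H180.pt x t)) :=
    (continuous_pt x).continuousAt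
  filter_upwards [h1.eventually (closedBall_mem_nhds _ B.hm.pos)] with s hs
  have hs' := mem_closedBall.1 hs
  by_cases hsZ : Vale.Agent.P032.H180.pt x s ∈ Z
  · left
    obtain ⟨e1, e2⟩ := B.hm.const _ hz _ hsZ hs'
    have hsu : Qx T x col s = univ := by
      rw [Qx_univ hcol, e1]
      exact hS
    refine ⟨hsu, hinj ?_⟩
    rw [rx_spec383 B hcol ((Qx_univ hcol).1 hsu), rx_spec383 B hcol hS]
    unfold hp
    rw [e1, e2]
  · right
    have hns : ¬ (T x)ᶜ ⊆ T (Vale.Agent.P032.H180.pt x s) := fun h2 =>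
      B.nc _ (Vale.Agent.P032.H180.dist_pt x s) hsZ h2
    refine ⟨fun h2 => hns ((Qx_univ hcol).1 h2), fun i hi j hj => ?_⟩
    by_contra hcon
    push Not at hcon
    obtain ⟨hir, hjr, hij⟩ := hcon
    have hap := rx_spec383 B hcol hS
    have key : ∀ m : Fin 3, m ≠ rx T f (T x) x col t →
        col m ∈ f (Vale.Agent.P032.H180.pt x t) := by
      intro m hm
      rcases a4 (col m) ((hcol _).2 ⟨m, rfl⟩) with h3 | h3
      · rw [← hap] at h3
        exact absurd (hinj h3) hm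
      · exact h3
    refine B.hm.forb _ hz _ hs' hsZ ?_
    have h4 : f (Vale.Agent.P032.H180.pt x t) = {col i, col j} := by
      symm
      apply Set.eq_of_subset_of_ncard_le
      · rintro m (rfl | rfl)
        · exact key i hir
        · exact key j hjr
      · rw [B.hm.two _ hz, Set.ncard_pair fun h => hij (hinj h)]
      · exact Set.toFinite _
    rw [h4]
    rintro m (rfl | rfl)
    · exact hi
    · exact hj

/-- **The letters** -/
theorem rc_hexw974 (B : H57.RC T Z f δ₀ x (T x)) (hcol : ∀ i, i ∉ T x ↔ ∃ l, i = col l)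
    (hinj : Function.Injective col) : HexW (Qx T x col) (rx T f (T x) x col) where
  per t := by unfold Qx; rw [pt_six]
  rper t := by unfold rx; rw [pt_six]
  ne t := by
    obtain ⟨i, hi, hiS⟩ := Set.not_subset.1 (B.full _ (Vale.Agent.P032.H180.dist_pt x t))
    obtain ⟨l, rfl⟩ := (hcol i).1 hiS
    exact ⟨l, hi⟩
  usc := usc_pt B.hm.usc x col
  lay t ht := rc_lay974 B hcol hinj ht

end Vale.Agent.P032.Six
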