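import Mathlib.Data.ZMod.Basic
import Mathlib.Algebra.BigOperators.Fin
import Mathlib.Algebra.CharP.Two
import Mathlib.Tactic.FinCases
import Mathlib.Tactic.Ring
import Mathlib.Tactic.LinearCombination

/-!
# P032: the state of a STAY vertex with vanishing inner graph, and the projective plane on six points

Pure finite statements.  `lam a b c` is the state (a graph on the other five colours for each `a`).

* `rp s`             : the projective plane with six vertices, named by the permutation `s`;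
* `Pl`, `rp_pl974`   : its properties (cocycle, complementary triples, links are pentagons);
* `Pl.prop974`       : propagation of the links through a common border;
* `Pl.det974`        : one link determines the plane;
* `stateA974`        : at a two-pair point V = (I, O : p, q) with `lam I = 0` the arc jumps, the
  agreements, the parities and the zeros at the complements of the faces of the two neighbours force
  two different free letters, and `lam O, lam p, lam q` are the links of one plane.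
-/

namespace Vale.Agent.P032.H974

/-! ### the plane -/

/-- the faces of the projective plane on `0, .., 5` with the link `1 2 3 4 5` of `0` -/
def base (a b c : Fin 6) : Bool :=
  Nat.testBit 131117011470855137994867894089838959140640446044200186311387392
    (36 * a.val + 6 * b.val + c.val)

theorem base_s12 : ∀ a b c : Fin 6, base a b c = base b a c := by decide

theorem base_s23 : ∀ a b c : Fin 6, base a b c = base a c b := by decide

theorem base_deg : ∀ a b : Fin 6, base a a b = false := by decide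

theorem base_coc : ∀ i a b c : Fin 6,
    base a b c = ((base i a b ^^ base i b c) ^^ base i a c) := by decide

theorem base_cmp : ∀ a b : Fin 6, b ≠ a → ∀ c, (c ≠ a ∧ c ≠ b) → ∀ d, (d ≠ a ∧ d ≠ b ∧ d ≠ c) →
    ∀ e, (e ≠ a ∧ e ≠ b ∧ e ≠ c ∧ e ≠ d) → ∀ f, (f ≠ a ∧ f ≠ b ∧ f ≠ c ∧ f ≠ d ∧ f ≠ e) →
      base d e f = !base a b c := by decide

/-- the symmetries of the plane are transitive -/
def sy (v : Fin 6) : Fin 6 → Fin 6 :=
  match v with
  | 0 => ![0, 1, 2, 3, 4, 5]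
  | 1 => ![1, 0, 2, 4, 3, 5]
  | 2 => ![1, 2, 0, 5, 3, 4]
  | 3 => ![1, 3, 5, 0, 2, 4]
  | 4 => ![1, 3, 4, 2, 0, 5]
  | 5 => ![1, 2, 4, 3, 5, 0]

theorem sy_inj : ∀ v a b : Fin 6, sy v a = sy v b → a = b := by decide

theorem sy_zero : ∀ v : Fin 6, sy v v = 0 := by decide

theorem sy_base : ∀ v a b c : Fin 6, base (sy v a) (sy v b) (sy v c) = base a b c := by decide

theorem zmod2 : ∀ x : ZMod 2, x = 0 ∨ x = 1 := by decide

theorem eq_of_add {x y : ZMod 2} (h : x + y = 0) : x = y := by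
  revert x y; decide

/-- even subgraphs of the pentagon -/
theorem five0 {g : Fin 6 → Fin 6 → ZMod 2} (sym : ∀ x y, g x y = g y x)
    (eul : ∀ b, b ≠ 0 → ∑ x, g b x = 0) (sup : ∀ x y, g x y ≠ 0 → base 0 x y = true)
    (hne : ∃ x y, g x y ≠ 0) (x y : Fin 6) : g x y = if base 0 x y then 1 else 0 := by
  have z : ∀ x y, base 0 x y = false → g x y = 0 := fun x y h => by
    by_contra h'
    rw [sup x y h'] at h
    exact absurd h (by decide)
  have e1 := eul 1 (by decide)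
  have e2 := eul 2 (by decide)
  have e3 := eul 3 (by decide)
  have e4 := eul 4 (by decide)
  rw [Fin.sum_univ_six, z 1 0 (by decide), z 1 1 (by decide), z 1 3 (by decide),
    z 1 4 (by decide)] at e1
  rw [Fin.sum_univ_six, z 2 0 (by decide), z 2 2 (by decide), z 2 4 (by decide),
    z 2 5 (by decide)] at e2
  rw [Fin.sum_univ_six, z 3 0 (by decide), z 3 1 (by decide), z 3 3 (by decide),
    z 3 5 (by decide)] at e3
  rw [Fin.sum_univ_six, z 4 0 (by decide), z 4 1 (by decide), z 4 2 (by decide),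
    z 4 4 (by decide)] at e4
  simp only [zero_add, add_zero] at e1 e2 e3 e4
  have f1 := eq_of_add e1
  have f2 := eq_of_add e2
  have f3 := eq_of_add e3
  have f4 := eq_of_add e4
  rw [sym 2 1] at f2
  rw [sym 3 2] at f3
  rw [sym 4 3] at f4
  -- all five edges have the value `g 1 2`
  have key : ∀ x y, g x y = if base 0 x y then g 1 2 else 0 := by
    have k12 : g 1 2 = g 1 2 := rfl
    have k23 : g 2 3 = g 1 2 := f2.symm
    have k34 : g 3 4 = g 1 2 := by rw [← f3, k23]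
    have k45 : g 4 5 = g 1 2 := by rw [← f4, k34]
    have k15 : g 1 5 = g 1 2 := f1.symm
    intro x y
    cases hb : base 0 x y with
    | false => rw [z x y hb, if_neg (by decide)]
    | true =>
      rw [if_pos rfl]
      have : ∀ x y : Fin 6, base 0 x y = true → (x = 1 ∧ y = 2) ∨ (x = 2 ∧ y = 1) ∨
          (x = 2 ∧ y = 3) ∨ (x = 3 ∧ y = 2) ∨ (x = 3 ∧ y = 4) ∨ (x = 4 ∧ y = 3) ∨
          (x = 4 ∧ y = 5) ∨ (x = 5 ∧ y = 4) ∨ (x = 1 ∧ y = 5) ∨ (x = 5 ∧ y = 1) := by decide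
      rcases this x y hb with ⟨rfl, rfl⟩ | ⟨rfl, rfl⟩ | ⟨rfl, rfl⟩ | ⟨rfl, rfl⟩ | ⟨rfl, rfl⟩ |
        ⟨rfl, rfl⟩ | ⟨rfl, rfl⟩ | ⟨rfl, rfl⟩ | ⟨rfl, rfl⟩ | ⟨rfl, rfl⟩
      · rfl
      · exact sym 2 1
      · exact k23
      · rw [sym 3 2]; exact k23
      · exact k34
      · rw [sym 4 3]; exact k34
      · exact k45
      · rw [sym 5 4]; exact k45
      · exact k15
      · rw [sym 5 1]; exact k15
  obtain ⟨u, v, huv⟩ := hne
  have h12 : g 1 2 = 1 := by
    rcases zmod2 (g 1 2) with h0 | h1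
    · exfalso
      refine huv ?_
      rw [key u v, h0]
      exact ite_self 0
    · exact h1
  rw [key x y, h12]

/-- the plane named by `s` -/
def rp (s : Equiv.Perm (Fin 6)) (a b c : Fin 6) : ZMod 2 :=
  if base (s a) (s b) (s c) then 1 else 0

/-- the properties of the plane -/
structure Pl (N : Fin 6 → Fin 6 → Fin 6 → ZMod 2) : Prop where
  s12 : ∀ a b c, N a b c = N b a c
  s23 : ∀ a b c, N a b c = N a c b
  deg : ∀ a b, N a a b = 0
  coc : ∀ i a b c, N a b c = N i a b + N i b c + N i a c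
  cmp : ∀ a b c d e f : Fin 6, [a, b, c, d, e, f].Nodup → N d e f = N a b c + 1
  five : ∀ j, ∀ g : Fin 6 → Fin 6 → ZMod 2, (∀ x y, g x y = g y x) →
    (∀ b, b ≠ j → ∑ x, g b x = 0) → (∀ x y, g x y ≠ 0 → N j x y ≠ 0) → (∃ x y, g x y ≠ 0) →
      ∀ x y, g x y = N j x y
  ex : ∀ i j, i ≠ j → ∃ d, N i j d ≠ 0

theorem nodup6 {a b c d e f : Fin 6} (h : [a, b, c, d, e, f].Nodup) :
    b ≠ a ∧ (c ≠ a ∧ c ≠ b) ∧ (d ≠ a ∧ d ≠ b ∧ d ≠ c) ∧ (e ≠ a ∧ e ≠ b ∧ e ≠ c ∧ e ≠ d) ∧
      (f ≠ a ∧ f ≠ b ∧ f ≠ c ∧ f ≠ d ∧ f ≠ e) := by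
  simp only [List.nodup_cons, List.mem_cons, List.not_mem_nil, or_false, not_or,
    List.nodup_nil, not_false_eq_true, and_true] at h
  obtain ⟨⟨h1, h2, h3, h4, h5⟩, ⟨h6, h7, h8, h9⟩, ⟨h10, h11, h12⟩, ⟨h13, h14⟩, h15⟩ := h
  exact ⟨Ne.symm h1, ⟨Ne.symm h2, Ne.symm h6⟩, ⟨Ne.symm h3, Ne.symm h7, Ne.symm h10⟩,
    ⟨Ne.symm h4, Ne.symm h8, Ne.symm h11, Ne.symm h13⟩,
    ⟨Ne.symm h5, Ne.symm h9, Ne.symm h12, Ne.symm h14, Ne.symm h15⟩⟩

theorem rp_pl974 (s : Equiv.Perm (Fin 6)) : Pl (rp s) where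
  s12 a b c := by rw [rp, rp, base_s12]
  s23 a b c := by rw [rp, rp, base_s23]
  deg a b := by rw [rp, base_deg]; rfl
  coc i a b c := by
    rw [rp, rp, rp, rp, base_coc (s i)]
    cases base (s i) (s a) (s b) <;> cases base (s i) (s b) (s c) <;>
      cases base (s i) (s a) (s c) <;> decide
  cmp a b c d e f h := by
    obtain ⟨h1, ⟨h2, h3⟩, ⟨h4, h5, h6⟩, ⟨h7, h8, h9, h10⟩, ⟨h11, h12, h13, h14, h15⟩⟩ := nodup6 h
    have n : ∀ {x y : Fin 6}, x ≠ y → s x ≠ s y := fun h h' => h (s.injective h')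
    rw [rp, rp, base_cmp (s a) (s b) (n h1) (s c) ⟨n h2, n h3⟩ (s d) ⟨n h4, n h5, n h6⟩ (s e)
      ⟨n h7, n h8, n h9, n h10⟩ (s f) ⟨n h11, n h12, n h13, n h14, n h15⟩]
    cases base (s a) (s b) (s c) <;> decide
  five j g sym eul sup hne x y := by
    have hb : Function.Bijective (sy (s j)) :=
      Finite.injective_iff_bijective.1 fun a b h => sy_inj _ a b h
    obtain ⟨t, ht⟩ : ∃ t : Equiv.Perm (Fin 6), ∀ x, t x = sy (s j) x :=
      ⟨Equiv.ofBijective _ hb, fun x => rfl⟩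
    obtain ⟨u, hu⟩ : ∃ u : Equiv.Perm (Fin 6), ∀ x, u x = t (s x) := ⟨s.trans t, fun x => rfl⟩
    have hj : u j = 0 := by rw [hu, ht]; exact sy_zero _
    have hrp : ∀ a b c, rp s a b c = if base (u a) (u b) (u c) then 1 else 0 := by
      intro a b c
      rw [rp, hu, hu, hu, ht, ht, ht, sy_base]
    have h1 := five0 (g := fun x y => g (u.symm x) (u.symm y)) (fun x y => sym _ _)
      (fun b hb => by
        have h2 := eul (u.symm b) fun h => hb (by rw [← hj, ← h, Equiv.apply_symm_apply])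
        rw [← h2]
        exact Equiv.sum_comp u.symm fun x => g (u.symm b) x)
      (fun x y h => by
        have h2 := sup _ _ h
        rw [hrp, hj, Equiv.apply_symm_apply, Equiv.apply_symm_apply] at h2
        by_contra h3
        exact h2 (if_neg h3))
      (by
        obtain ⟨x, y, h⟩ := hne
        exact ⟨u x, u y, by simpa using h⟩) (u x) (u y)
    rw [hrp, hj]
    simpa using h1
  ex i j hij := by
    have : ∀ i j : Fin 6, i ≠ j → ∃ d, base i j d = true := by decide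
    obtain ⟨d, hd⟩ := this (s i) (s j) fun h => hij (s.injective h)
    refine ⟨s.symm d, ?_⟩
    rw [rp, Equiv.apply_symm_apply, hd]
    decide

namespace Pl

variable {N : Fin 6 → Fin 6 → Fin 6 → ZMod 2}

/-- **one link determines the plane** -/
theorem det974 (P : Pl N) {N' : Fin 6 → Fin 6 → Fin 6 → ZMod 2} (P' : Pl N') {i : Fin 6}
    (h : ∀ x y, N i x y = N' i x y) : N = N' := by
  funext a b c
  rw [P.coc i, P'.coc i, h, h, h]

/-- **propagation through a common border** : the link of `i` is the link of the plane, the graph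
`g` of `j` agrees with it on the border, and no complementary pair is seen -/
theorem prop974 (P : Pl N) {g : Fin 6 → Fin 6 → ZMod 2} {i j : Fin 6} (hij : i ≠ j)
    (sym : ∀ x y, g x y = g y x) (self : ∀ x, g j x = 0) (diag : ∀ x, g x x = 0)
    (eul : ∀ b, b ≠ j → ∑ x, g b x = 0) (agree : ∀ d, g i d = N i j d)
    (nc : ∀ a b c d, [j, a, b, i, c, d].Nodup → g a b ≠ 0 → N i c d ≠ 0 → False) :
    ∀ x y, g x y = N j x y := by
  refine P.five j g sym eul (fun a b hab h0 => ?_) ?_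
  · -- the support
    have haj : a ≠ j := fun h => hab (by rw [h]; exact self b)
    have hbj : b ≠ j := fun h => hab (by rw [h, sym]; exact self a)
    have hne : a ≠ b := fun h => hab (by rw [h]; exact diag b)
    by_cases hai : a = i
    · rw [hai] at hab h0
      rw [agree] at hab
      refine hab ?_
      rw [P.s12 i j b]
      exact h0
    by_cases hbi : b = i
    · rw [hbi, sym] at hab
      rw [hbi] at h0
      rw [agree] at hab
      refine hab ?_
      rw [P.s12 i j a, P.s23]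
      exact h0
    obtain ⟨c, d, hcd⟩ : ∃ c d, [j, a, b, i, c, d].Nodup := by
      have : ∀ j a : Fin 6, a ≠ j → ∀ b, b ≠ j → a ≠ b → ∀ i, a ≠ i → b ≠ i → i ≠ j →
          ∃ c d, [j, a, b, i, c, d].Nodup := by decide
      exact this j a haj b hbj hne i hai hbi hij
    refine nc a b c d hcd hab fun h1 => ?_
    have h2 := P.cmp j a b i c d hcd
    rw [h0, h1] at h2
    exact absurd h2 (by decide)
  · obtain ⟨d, hd⟩ := P.ex i j hij
    exact ⟨i, d, by rw [agree]; exact hd⟩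

/-- the constant labels -/
def lab (N : Fin 6 → Fin 6 → Fin 6 → ZMod 2) (a b : Fin 6) : ZMod 2 :=
  N 0 a b + (if a = 1 then 1 else 0) + (if b = 1 then 1 else 0)

theorem lab_symm (P : Pl N) (a b : Fin 6) : lab N a b = lab N b a := by
  rw [lab, lab, P.s23 0 a b]; ring

theorem lab_sum (P : Pl N) (a b c : Fin 6) : lab N a b + lab N b c + lab N a c = N a b c := by
  rw [P.coc 0 a b c, lab, lab, lab]
  have h2 : ∀ x y z u v w : ZMod 2, x + u + v + (y + v + w) + (z + u + w) = x + y + z := by decide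
  exact h2 _ _ _ _ _ _

theorem lab_01 (P : Pl N) : lab N 0 1 = 1 := by
  rw [lab, P.deg]; decide

theorem lab_02 (P : Pl N) : lab N 0 2 = 0 := by
  rw [lab, P.deg]; decide

theorem lab_12 (h : N 0 1 2 = 1) : lab N 1 2 = 0 := by
  rw [lab, h]; decide

/-- four borders round a two-pair point -/
theorem lab_four (P : Pl N) {a b m n : Fin 6} (h : N a m b + N a n b = 0) :
    lab N a m + lab N m b + lab N b n + lab N n a = 0 := by
  have h1 := P.lab_sum a m b
  have h2 := P.lab_sum a n b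
  rw [← h1, ← h2] at h
  rw [P.lab_symm n b, P.lab_symm a n] at h
  revert h
  generalize lab N a m = x
  generalize lab N m b = y
  generalize lab N a b = z
  generalize lab N b n = u
  generalize lab N n a = v
  revert x y z u v
  decide

end Pl

/-! ### the vertex -/

theorem sum6 {a b c d e f : Fin 6} (h : [a, b, c, d, e, f].Nodup) (F : Fin 6 → ZMod 2) :
    ∑ i, F i = F a + F b + F c + F d + F e + F f := by
  have h1 : (Finset.univ : Finset (Fin 6)) = [a, b, c, d, e, f].toFinset :=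
    (Finset.eq_univ_of_card _ (by rw [List.toFinset_card_of_nodup h]; rfl)).symm
  rw [h1, List.sum_toFinset _ h]
  simp only [List.map_cons, List.map_nil, List.sum_cons, List.sum_nil, add_zero]
  ring

theorem exists_names {a b c d e f : Fin 6} (h : [a, b, c, d, e, f].Nodup) :
    ∃ s : Equiv.Perm (Fin 6), s a = 0 ∧ s b = 1 ∧ s c = 2 ∧ s d = 3 ∧ s e = 4 ∧ s f = 5 := by
  have hinj : Function.Injective (![a, b, c, d, e, f] : Fin 6 → Fin 6) := by
    obtain ⟨h1, ⟨h2, h3⟩, ⟨h4, h5, h6⟩, ⟨h7, h8, h9, h10⟩, ⟨h11, h12, h13, h14, h15⟩⟩ := nodup6 h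
    intro i j hij
    fin_cases i <;> fin_cases j <;>
      first
      | rfl
      | (exfalso; simp at hij; first | contradiction | (exact absurd hij.symm ‹_›))
  have hbij := Finite.injective_iff_bijective.1 hinj
  refine ⟨(Equiv.ofBijective _ hbij).symm, ?_, ?_, ?_, ?_, ?_, ?_⟩ <;>
    · rw [Equiv.symm_apply_eq]; rfl

/-- the values at the vertex in the surviving case: a linear system -/
theorem lin974 (a1 a2 a3 a4 a5 a6 : ZMod 2) (o1 : 1 + a1 + a2 + a3 = 0)
    (o2 : 1 + a1 + a4 + a5 = 0) (o3 : a2 + a4 + a6 = 0) (h6 : a6 = 1) (h2 : a2 = 0)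
    (h5 : a5 = 0) : a1 = 0 ∧ a3 = 1 ∧ a4 = 1 := by
  revert a1 a2 a3 a4 a5 a6
  decide

theorem lin_six (x y a2 a4 a6 b4 c4 : ZMod 2) (h1 : x + a2 + b4 + 0 = 0)
    (h2 : y + a4 + c4 + 0 = 0) (h3 : b4 + c4 = 1 + x + y) (h4 : a2 + a4 + a6 = 0) : a6 = 1 := by
  revert x y a2 a4 a6 b4 c4
  decide

/-- a symmetric function is determined by fifteen values -/
theorem red974 {g : Fin 6 → Fin 6 → ZMod 2} (sym : ∀ x y, g x y = g y x) (diag : ∀ x, g x x = 0)
    {s : Equiv.Perm (Fin 6)} {x0 x1 x2 x3 x4 x5 : Fin 6} (s0 : s x0 = 0) (s1 : s x1 = 1)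
    (s2 : s x2 = 2) (s3 : s x3 = 3) (s4 : s x4 = 4) (s5 : s x5 = 5) {a k : Fin 6} (hk : s a = k)
    (v01 : g x0 x1 = if base k 0 1 then 1 else 0) (v02 : g x0 x2 = if base k 0 2 then 1 else 0)
    (v03 : g x0 x3 = if base k 0 3 then 1 else 0) (v04 : g x0 x4 = if base k 0 4 then 1 else 0)
    (v05 : g x0 x5 = if base k 0 5 then 1 else 0) (v12 : g x1 x2 = if base k 1 2 then 1 else 0)
    (v13 : g x1 x3 = if base k 1 3 then 1 else 0) (v14 : g x1 x4 = if base k 1 4 then 1 else 0)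
    (v15 : g x1 x5 = if base k 1 5 then 1 else 0) (v23 : g x2 x3 = if base k 2 3 then 1 else 0)
    (v24 : g x2 x4 = if base k 2 4 then 1 else 0) (v25 : g x2 x5 = if base k 2 5 then 1 else 0)
    (v34 : g x3 x4 = if base k 3 4 then 1 else 0) (v35 : g x3 x5 = if base k 3 5 then 1 else 0)
    (v45 : g x4 x5 = if base k 4 5 then 1 else 0) (x y : Fin 6) : g x y = rp s a x y := by
  have hd : ∀ k i : Fin 6, base k i i = false := by decide
  have up : ∀ x y, s x < s y → g x y = if base k (s x) (s y) then 1 else 0 := by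
    intro x y hxy
    have hx : ∀ z w, s z = s w → z = w := fun z w h => s.injective h
    obtain ⟨i, hi⟩ : ∃ i, i = s x := ⟨_, rfl⟩
    obtain ⟨j, hj⟩ : ∃ j, j = s y := ⟨_, rfl⟩
    rw [← hi, ← hj] at hxy ⊢
    have hij : ∀ i j : Fin 6, i < j → (i = 0 ∧ (j = 1 ∨ j = 2 ∨ j = 3 ∨ j = 4 ∨ j = 5)) ∨
        (i = 1 ∧ (j = 2 ∨ j = 3 ∨ j = 4 ∨ j = 5)) ∨ (i = 2 ∧ (j = 3 ∨ j = 4 ∨ j = 5)) ∨
        (i = 3 ∧ (j = 4 ∨ j = 5)) ∨ (i = 4 ∧ j = 5) := by decide
    rcases hij i j hxy with ⟨h1, h2⟩ | ⟨h1, h2⟩ | ⟨h1, h2⟩ | ⟨h1, h2⟩ | ⟨h1, h2⟩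
    · rw [hx x x0 (by rw [← hi, h1, s0])]
      rcases h2 with h2 | h2 | h2 | h2 | h2
      · rw [hx y x1 (by rw [← hj, h2, s1]), h1, h2]; exact v01
      · rw [hx y x2 (by rw [← hj, h2, s2]), h1, h2]; exact v02
      · rw [hx y x3 (by rw [← hj, h2, s3]), h1, h2]; exact v03
      · rw [hx y x4 (by rw [← hj, h2, s4]), h1, h2]; exact v04
      · rw [hx y x5 (by rw [← hj, h2, s5]), h1, h2]; exact v05
    · rw [hx x x1 (by rw [← hi, h1, s1])]
      rcases h2 with h2 | h2 | h2 | h2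
      · rw [hx y x2 (by rw [← hj, h2, s2]), h1, h2]; exact v12
      · rw [hx y x3 (by rw [← hj, h2, s3]), h1, h2]; exact v13
      · rw [hx y x4 (by rw [← hj, h2, s4]), h1, h2]; exact v14
      · rw [hx y x5 (by rw [← hj, h2, s5]), h1, h2]; exact v15
    · rw [hx x x2 (by rw [← hi, h1, s2])]
      rcases h2 with h2 | h2 | h2
      · rw [hx y x3 (by rw [← hj, h2, s3]), h1, h2]; exact v23
      · rw [hx y x4 (by rw [← hj, h2, s4]), h1, h2]; exact v24
      · rw [hx y x5 (by rw [← hj, h2, s5]), h1, h2]; exact v25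
    · rw [hx x x3 (by rw [← hi, h1, s3])]
      rcases h2 with h2 | h2
      · rw [hx y x4 (by rw [← hj, h2, s4]), h1, h2]; exact v34
      · rw [hx y x5 (by rw [← hj, h2, s5]), h1, h2]; exact v35
    · rw [hx x x4 (by rw [← hi, h1, s4]), hx y x5 (by rw [← hj, h2, s5]), h1, h2]; exact v45
  rw [rp, hk]
  rcases lt_trichotomy (s x) (s y) with h1 | h1 | h1
  · exact up x y h1
  · rw [s.injective h1, diag, hd]; rfl
  · rw [sym, base_s23]
    exact up y x h1

variable {lam : Fin 6 → Fin 6 → Fin 6 → ZMod 2}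

/-- the surviving case: `g`, `h` are the two free letters -/
theorem core974 {I O p q g h : Fin 6} (hnd : [I, O, p, g, h, q].Nodup)
    (sym : ∀ a b c, lam a b c = lam a c b) (self : ∀ a b, lam a a b = 0)
    (diag : ∀ a b, lam a b b = 0)
    (eO : ∀ b, b ≠ O → ∑ i, lam O b i = 0) (ep : ∀ b, b ≠ p → ∑ i, lam p b i = 0)
    (eq : ∀ b, b ≠ q → ∑ i, lam q b i = 0)
    (pI : lam p I O = 1) (pg : lam p I g = 1) (ph : lam p I h = 0) (pq : lam p I q = 0)
    (qI : lam q I O = 1) (qh : lam q I h = 1) (qg : lam q I g = 0) (qp : lam q I p = 0)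
    (ap : ∀ d, lam O p d = lam p O d) (aq : ∀ d, lam O q d = lam q O d)
    (oI : lam O I g = 0) (oI' : lam O I h = 0)
    (a6 : lam O g h = 1) (a2 : lam O p g = 0) (a5 : lam O q h = 0)
    (z1 : lam q g h = 0) (z2 : lam p g h = 0) :
    ∃ s : Equiv.Perm (Fin 6), (s I = 0 ∧ s O = 1 ∧ s p = 2 ∧ s g = 3 ∧ s h = 4 ∧ s q = 5) ∧
      (∀ x y, lam O x y = rp s O x y) ∧ (∀ x y, lam p x y = rp s p x y) ∧
        ∀ x y, lam q x y = rp s q x y := by
  obtain ⟨s, hs⟩ := exists_names hnd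
  refine ⟨s, hs, ?_⟩
  obtain ⟨s0, s1, s2, s3, s4, s5⟩ := hs
  have self' : ∀ a b, lam a b a = 0 := fun a b => by rw [sym]; exact self a b
  obtain ⟨n1, ⟨n2, n3⟩, ⟨n4, n5, n6⟩, ⟨n7, n8, n9, n10⟩, ⟨n11, n12, n13, n14, n15⟩⟩ := nodup6 hnd
  have oIp : lam O I p = 1 := by rw [sym, ap, sym]; exact pI
  have oIq : lam O I q = 1 := by rw [sym, aq, sym]; exact qI
  -- Euler at `O`
  have E1 := eO p n3
  have E2 := eO q n12
  have E3 := eO g n5
  rw [sum6 hnd, self', diag, sym O p I, oIp] at E1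
  rw [sum6 hnd, self', diag, sym O q I, oIq] at E2
  rw [sum6 hnd, self', diag, sym O g I, oI, sym O g p, sym O g q] at E3
  have L := lin974 (lam O p q) (lam O p g) (lam O p h) (lam O q g) (lam O q h) (lam O g h)
    (by rw [← E1]; ring) (by rw [← E2, sym O q p]; ring) (by rw [← E3]; ring) a6 a2 a5
  obtain ⟨l1, l3, l4⟩ := L
  -- Euler at `p`
  have F1 := ep g n6
  have F2 := ep h n9
  rw [sum6 hnd, self', diag, sym p g I, pg, sym p g O, ← ap, a2, z2] at F1
  rw [sum6 hnd, self', diag, sym p h I, ph, sym p h O, ← ap, l3, sym p h g, z2] at F2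
  have G1 := eq g n14.symm
  have G2 := eq h n15.symm
  rw [sum6 hnd, self', diag, sym q g I, qg, sym q g O, ← aq, l4, z1] at G1
  rw [sum6 hnd, self', diag, sym q h I, qh, sym q h O, ← aq, a5, sym q h g, z1] at G2
  have t1 : ∀ x : ZMod 2, 1 + 0 + 0 + 0 + 0 + x = 0 → x = 1 := by decide
  have t2 : ∀ x : ZMod 2, 0 + 1 + 0 + 0 + 0 + x = 0 → x = 1 := by decide
  have t3 : ∀ x : ZMod 2, 0 + 1 + x + 0 + 0 + 0 = 0 → x = 1 := by decide
  have t4 : ∀ x : ZMod 2, 1 + 0 + x + 0 + 0 + 0 = 0 → x = 1 := by decide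
  have pgq : lam p g q = 1 := t1 _ F1
  have phq : lam p h q = 1 := t2 _ F2
  have qgp : lam q g p = 1 := t3 _ G1
  have qhp : lam q h p = 1 := t4 _ G2
  refine ⟨?_, ?_, ?_⟩
  · refine red974 (sym O) (diag O) s0 s1 s2 s3 s4 s5 s1 ?_ ?_ ?_ ?_ ?_ ?_ ?_ ?_ ?_ ?_ ?_ ?_ ?_ ?_ ?_
    · rw [self']; decide
    · rw [oIp]; decide
    · rw [oI]; decide
    · rw [oI']; decide
    · rw [oIq]; decide
    · rw [self]; decide
    · rw [self]; decide
    · rw [self]; decide
    · rw [self]; decide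
    · rw [a2]; decide
    · rw [l3]; decide
    · rw [l1]; decide
    · rw [a6]; decide
    · rw [sym, l4]; decide
    · rw [sym, a5]; decide
  · refine red974 (sym p) (diag p) s0 s1 s2 s3 s4 s5 s2 ?_ ?_ ?_ ?_ ?_ ?_ ?_ ?_ ?_ ?_ ?_ ?_ ?_ ?_ ?_
    · rw [pI]; decide
    · rw [self']; decide
    · rw [pg]; decide
    · rw [ph]; decide
    · rw [pq]; decide
    · rw [self']; decide
    · rw [← ap, a2]; decide
    · rw [← ap, l3]; decide
    · rw [← ap, l1]; decide
    · rw [self]; decide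
    · rw [self]; decide
    · rw [self]; decide
    · rw [z2]; decide
    · rw [pgq]; decide
    · rw [phq]; decide
  · refine red974 (sym q) (diag q) s0 s1 s2 s3 s4 s5 s5 ?_ ?_ ?_ ?_ ?_ ?_ ?_ ?_ ?_ ?_ ?_ ?_ ?_ ?_ ?_
    · rw [qI]; decide
    · rw [qp]; decide
    · rw [qg]; decide
    · rw [qh]; decide
    · rw [self']; decide
    · rw [← aq, sym, l1]; decide
    · rw [← aq, l4]; decide
    · rw [← aq, a5]; decide
    · rw [self']; decide
    · rw [sym, qgp]; decide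
    · rw [sym, qhp]; decide
    · rw [self']; decide
    · rw [z1]; decide
    · rw [self']; decide
    · rw [self']; decide

/-- a linear contradiction -/
theorem lin_bad (a1 a2 a3 a4 a5 a6 : ZMod 2) (o1 : 1 + a1 + a2 + a3 = 0)
    (o2 : 1 + a1 + a4 + a5 = 0) (o3 : a2 + a4 + a6 = 0) (h6 : a6 = 1) (h3 : a3 = 0)
    (h5 : a5 = 0) : False := by
  subst h6 h3 h5
  revert a1 a2 a4
  decide

/-- **The state of a vertex V = (I, O : p, q) with vanishing graph of `I`.**  `jp`, `jq` : jumps on the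
two arc borders (`g`, `h` = the colours brought by the two neighbours; g = q or h = p is a
J-link), `ap`, `aq` : agreement on the two normal borders, `par` : the diagonal `p | q`, `oI` : the
diagonal `I | O`, `z1 .. zq` : the complements of the faces of the two neighbours are absent. -/
theorem stateA974 {I O p q e f g h : Fin 6} (hnd : [I, O, p, q, e, f].Nodup)
    (sym : ∀ a b c, lam a b c = lam a c b) (self : ∀ a b, lam a a b = 0)
    (diag : ∀ a b, lam a b b = 0)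
    (eO : ∀ b, b ≠ O → ∑ i, lam O b i = 0) (ep : ∀ b, b ≠ p → ∑ i, lam p b i = 0)
    (eq : ∀ b, b ≠ q → ∑ i, lam q b i = 0) (hI : ∀ b c, lam I b c = 0)
    (hg : g = q ∨ g = e ∨ g = f) (hh : h = p ∨ h = e ∨ h = f)
    (jp : ∀ d, d ≠ I → d ≠ p → lam I p d + lam p I d = if d = O ∨ d = g then 1 else 0)
    (jq : ∀ d, d ≠ I → d ≠ q → lam I q d + lam q I d = if d = O ∨ d = h then 1 else 0)
    (ap : ∀ d, lam O p d = lam p O d) (aq : ∀ d, lam O q d = lam q O d)
    (par : ∀ w, w = e ∨ w = f → lam p q w + lam q p w =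
      1 + (if w = g then 1 else 0) + (if w = h then 1 else 0))
    (oI : ∀ w, w = e ∨ w = f → lam I O w = lam O I w)
    (z1 : lam q e f = 0) (z2 : lam p e f = 0)
    (zp : ∀ x y, [I, p, g, O, x, y].Nodup → lam O x y = 0)
    (zq : ∀ x y, [I, q, h, O, x, y].Nodup → lam O x y = 0) :
    ((g = e ∧ h = f) ∨ (g = f ∧ h = e)) ∧
    ∃ s : Equiv.Perm (Fin 6), (s I = 0 ∧ s O = 1 ∧ s p = 2 ∧ s g = 3 ∧ s h = 4 ∧ s q = 5) ∧
      (∀ x y, lam O x y = rp s O x y) ∧ (∀ x y, lam p x y = rp s p x y) ∧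
        ∀ x y, lam q x y = rp s q x y := by
  have self' : ∀ a b, lam a b a = 0 := fun a b => by rw [sym]; exact self a b
  obtain ⟨n1, ⟨n2, n3⟩, ⟨n4, n5, n6⟩, ⟨n7, n8, n9, n10⟩, ⟨n11, n12, n13, n14, n15⟩⟩ := nodup6 hnd
  have jp' : ∀ d, d ≠ I → d ≠ p → lam p I d = if d = O ∨ d = g then 1 else 0 := by
    intro d h1 h2
    rw [← jp d h1 h2, hI, zero_add]
  have jq' : ∀ d, d ≠ I → d ≠ q → lam q I d = if d = O ∨ d = h then 1 else 0 := by
    intro d h1 h2
    rw [← jq d h1 h2, hI, zero_add]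
  have oI' : ∀ w, w = e ∨ w = f → lam O I w = 0 := fun w hw => by rw [← oI w hw, hI]
  have pI : lam p I O = 1 := by rw [jp' O n1 n3.symm, if_pos (Or.inl rfl)]
  have qI : lam q I O = 1 := by rw [jq' O n1 n5.symm, if_pos (Or.inl rfl)]
  have oIp : lam O I p = 1 := by rw [sym, ap, sym]; exact pI
  have oIq : lam O I q = 1 := by rw [sym, aq, sym]; exact qI
  have hge : ∀ w, w = e ∨ w = f → w ≠ O := by
    rintro w (rfl | rfl)
    · exact n8
    · exact n12
  have xe : lam p I e = if e = g then 1 else 0 := by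
    rw [jp' e n7 n9]
    by_cases h1 : e = g
    · rw [if_pos (Or.inr h1), if_pos h1]
    · rw [if_neg (not_or.2 ⟨n8, h1⟩), if_neg h1]
  have ye : lam q I e = if e = h then 1 else 0 := by
    rw [jq' e n7 n10]
    by_cases h1 : e = h
    · rw [if_pos (Or.inr h1), if_pos h1]
    · rw [if_neg (not_or.2 ⟨n8, h1⟩), if_neg h1]
  -- Euler
  have E1 := eO p n3
  have E2 := eO q n5
  have E3 := eO e n8
  rw [sum6 hnd, self', diag, sym O p I, oIp] at E1
  rw [sum6 hnd, self', diag, sym O q I, oIq] at E2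
  rw [sum6 hnd, self', diag, sym O e I, oI' e (Or.inl rfl), sym O e p, sym O e q] at E3
  have o1 : 1 + lam O p q + lam O p e + lam O p f = 0 := by rw [← E1]; ring
  have o2 : 1 + lam O p q + lam O q e + lam O q f = 0 := by rw [← E2, sym O q p]; ring
  have o3 : lam O p e + lam O q e + lam O e f = 0 := by rw [← E3]; ring
  have a6 : lam O e f = 1 := by
    have F1 := ep e n9
    have G1 := eq e n10
    rw [sum6 hnd, self', diag, sym p e I, xe, sym p e O, ← ap, z2, sym p e q] at F1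
    rw [sum6 hnd, self', diag, sym q e I, ye, sym q e O, ← aq, z1, sym q e p] at G1
    exact lin_six _ _ (lam O p e) (lam O q e) (lam O e f) (lam p q e) (lam q p e)
      (by linear_combination F1) (by linear_combination G1) (par e (Or.inl rfl)) o3
  have nd : ∀ x y z w u v : Fin 6, x ≠ y → x ≠ z → x ≠ w → x ≠ u → x ≠ v → y ≠ z → y ≠ w →
      y ≠ u → y ≠ v → z ≠ w → z ≠ u → z ≠ v → w ≠ u → w ≠ v → u ≠ v →
      [x, y, z, w, u, v].Nodup := by
    intro x y z w u v a1 a2 a3 a4 a5 a6 a7 a8 a9 a10 a11 a12 a13 a14 a15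
    simp [a1, a2, a3, a4, a5, a6, a7, a8, a9, a10, a11, a12, a13, a14, a15]
  rcases hg with hg | hg | hg
  · -- `J` at the first neighbour
    exfalso
    rw [hg] at zp
    rw [zp e f (nd _ _ _ _ _ _ n2.symm n4.symm n1.symm n7.symm n11.symm n6.symm n3 n9.symm
      n13.symm n5 n10.symm n14.symm n8.symm n12.symm n15.symm)] at a6
    exact absurd a6 (by decide)
  all_goals rcases hh with hh | hh | hh
  · exfalso
    rw [hh] at zq
    rw [zq e f (nd _ _ _ _ _ _ n4.symm n2.symm n1.symm n7.symm n11.symm n6 n5 n10.symm n14.symm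
      n3 n9.symm n13.symm n8.symm n12.symm n15.symm)] at a6
    exact absurd a6 (by decide)
  · -- `g = h = e`
    exfalso
    rw [hg] at zp
    rw [hh] at zq
    have a5 := zp q f (nd _ _ _ _ _ _ n2.symm n7.symm n1.symm n4.symm n11.symm n9.symm n3 n6.symm
      n13.symm n8 n10 n15.symm n5.symm n12.symm n14.symm)
    have a3 := zq p f (nd _ _ _ _ _ _ n4.symm n7.symm n1.symm n2.symm n11.symm n10.symm n5 n6
      n14.symm n8 n9 n15.symm n3.symm n12.symm n13.symm)
    exact lin_bad _ _ _ _ _ _ o1 o2 o3 a6 a3 a5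
  · -- `g = e`, `h = f`
    have zp' := zp
    have zq' := zq
    rw [hg] at zp'
    rw [hh] at zq'
    have a5 := zp' q f (nd _ _ _ _ _ _ n2.symm n7.symm n1.symm n4.symm n11.symm n9.symm n3
      n6.symm n13.symm n8 n10 n15.symm n5.symm n12.symm n14.symm)
    have a2 := zq' p e (nd _ _ _ _ _ _ n4.symm n11.symm n1.symm n2.symm n7.symm n14.symm n5 n6
      n10.symm n12 n13 n15 n3.symm n8.symm n9.symm)
    refine ⟨Or.inl ⟨hg, hh⟩, ?_⟩
    rw [hg, hh]
    rw [hg] at jp'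
    rw [hh] at jq'
    refine core974 (nd _ _ _ _ _ _ n1.symm n2.symm n7.symm n11.symm n4.symm n3.symm n8.symm
      n12.symm n5.symm n9.symm n13.symm n6.symm n15.symm n10 n14) sym self diag eO ep eq pI ?_ ?_
      ?_ qI ?_ ?_ ?_ ap aq (oI' e (Or.inl rfl)) (oI' f (Or.inr rfl)) a6 a2 a5 z1 z2
    · rw [jp' e n7 n9, if_pos (Or.inr rfl)]
    · rw [jp' f n11 n13, if_neg (not_or.2 ⟨n12, n15⟩)]
    · rw [jp' q n4 n6, if_neg (not_or.2 ⟨n5, n10.symm⟩)]
    · rw [jq' f n11 n14, if_pos (Or.inr rfl)]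
    · rw [jq' e n7 n10, if_neg (not_or.2 ⟨n8, n15.symm⟩)]
    · rw [jq' p n2 n6.symm, if_neg (not_or.2 ⟨n3, n13.symm⟩)]
  · exfalso
    rw [hh] at zq
    rw [zq e f (nd _ _ _ _ _ _ n4.symm n2.symm n1.symm n7.symm n11.symm n6 n5 n10.symm n14.symm
      n3 n9.symm n13.symm n8.symm n12.symm n15.symm)] at a6
    exact absurd a6 (by decide)
  · -- `g = f`, `h = e`
    have zp' := zp
    have zq' := zq
    rw [hg] at zp'
    rw [hh] at zq'
    have a5 := zp' q e (nd _ _ _ _ _ _ n2.symm n11.symm n1.symm n4.symm n7.symm n13.symm n3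
      n6.symm n9.symm n12 n14 n15 n5.symm n8.symm n10.symm)
    have a2 := zq' p f (nd _ _ _ _ _ _ n4.symm n7.symm n1.symm n2.symm n11.symm n10.symm n5 n6
      n14.symm n8 n9 n15.symm n3.symm n12.symm n13.symm)
    refine ⟨Or.inr ⟨hg, hh⟩, ?_⟩
    rw [hg, hh]
    rw [hg] at jp'
    rw [hh] at jq'
    refine core974 (nd _ _ _ _ _ _ n1.symm n2.symm n11.symm n7.symm n4.symm n3.symm n12.symm
      n8.symm n5.symm n13.symm n9.symm n6.symm n15 n14 n10) sym self diag eO ep eq pI ?_ ?_ ?_ qI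
      ?_ ?_ ?_ ap aq (oI' f (Or.inr rfl)) (oI' e (Or.inl rfl)) (by rw [sym]; exact a6) a2 a5
      (by rw [sym]; exact z1) (by rw [sym]; exact z2)
    · rw [jp' f n11 n13, if_pos (Or.inr rfl)]
    · rw [jp' e n7 n9, if_neg (not_or.2 ⟨n8, n15.symm⟩)]
    · rw [jp' q n4 n6, if_neg (not_or.2 ⟨n5, n14.symm⟩)]
    · rw [jq' e n7 n10, if_pos (Or.inr rfl)]
    · rw [jq' f n11 n14, if_neg (not_or.2 ⟨n12, n15⟩)]
    · rw [jq' p n2 n6.symm, if_neg (not_or.2 ⟨n3, n9.symm⟩)]
  · -- `g = h = f`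
    exfalso
    rw [hg] at zp
    rw [hh] at zq
    have a4 := zp q e (nd _ _ _ _ _ _ n2.symm n11.symm n1.symm n4.symm n7.symm n13.symm n3
      n6.symm n9.symm n12 n14 n15 n5.symm n8.symm n10.symm)
    have a2 := zq p e (nd _ _ _ _ _ _ n4.symm n11.symm n1.symm n2.symm n7.symm n14.symm n5 n6
      n10.symm n12 n13 n15 n3.symm n8.symm n9.symm)
    rw [a2, a4, a6] at o3
    exact absurd o3 (by decide)

/-- **The same without the faces of the neighbours** : no complementary pair is seen from the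
vertex -/
theorem stateA_nc974 {I O p q e f g h : Fin 6} (hnd : [I, O, p, q, e, f].Nodup)
    (sym : ∀ a b c, lam a b c = lam a c b) (self : ∀ a b, lam a a b = 0)
    (diag : ∀ a b, lam a b b = 0)
    (eO : ∀ b, b ≠ O → ∑ i, lam O b i = 0) (ep : ∀ b, b ≠ p → ∑ i, lam p b i = 0)
    (eq : ∀ b, b ≠ q → ∑ i, lam q b i = 0) (hI : ∀ b c, lam I b c = 0)
    (hg : g = q ∨ g = e ∨ g = f) (hh : h = p ∨ h = e ∨ h = f)
    (jp : ∀ d, d ≠ I → d ≠ p → lam I p d + lam p I d = if d = O ∨ d = g then 1 else 0)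
    (jq : ∀ d, d ≠ I → d ≠ q → lam I q d + lam q I d = if d = O ∨ d = h then 1 else 0)
    (ap : ∀ d, lam O p d = lam p O d) (aq : ∀ d, lam O q d = lam q O d)
    (par : ∀ w, w = e ∨ w = f → lam p q w + lam q p w =
      1 + (if w = g then 1 else 0) + (if w = h then 1 else 0))
    (oI : ∀ w, w = e ∨ w = f → lam I O w = lam O I w)
    (nc : ∀ a b c a' b' c', (a = O ∨ a = p ∨ a = q) → (a' = O ∨ a' = p ∨ a' = q) →
      [a, b, c, a', b', c'].Nodup → lam a b c ≠ 0 → lam a' b' c' ≠ 0 → False) :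
    ((g = e ∧ h = f) ∨ (g = f ∧ h = e)) ∧
    ∃ s : Equiv.Perm (Fin 6), (s I = 0 ∧ s O = 1 ∧ s p = 2 ∧ s g = 3 ∧ s h = 4 ∧ s q = 5) ∧
      (∀ x y, lam O x y = rp s O x y) ∧ (∀ x y, lam p x y = rp s p x y) ∧
        ∀ x y, lam q x y = rp s q x y := by
  obtain ⟨n1, ⟨n2, n3⟩, ⟨n4, n5, n6⟩, ⟨n7, n8, n9, n10⟩, ⟨n11, n12, n13, n14, n15⟩⟩ := nodup6 hnd
  have one : (1 : ZMod 2) ≠ 0 := by decide
  have jp' : ∀ d, d ≠ I → d ≠ p → d = O ∨ d = g → lam p I d ≠ 0 := by
    intro d h1 h2 h3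
    have h4 := jp d h1 h2
    rw [hI, zero_add, if_pos h3] at h4
    rw [h4]; exact one
  have jq' : ∀ d, d ≠ I → d ≠ q → d = O ∨ d = h → lam q I d ≠ 0 := by
    intro d h1 h2 h3
    have h4 := jq d h1 h2
    rw [hI, zero_add, if_pos h3] at h4
    rw [h4]; exact one
  have nd : ∀ x y z w u v : Fin 6, x ≠ y → x ≠ z → x ≠ w → x ≠ u → x ≠ v → y ≠ z → y ≠ w →
      y ≠ u → y ≠ v → z ≠ w → z ≠ u → z ≠ v → w ≠ u → w ≠ v → u ≠ v →
      [x, y, z, w, u, v].Nodup := by
    intro x y z w u v a1 a2 a3 a4 a5 a6 a7 a8 a9 a10 a11 a12 a13 a14 a15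
    simp [a1, a2, a3, a4, a5, a6, a7, a8, a9, a10, a11, a12, a13, a14, a15]
  have hgI : g ≠ I := by rcases hg with rfl | rfl | rfl <;> assumption
  have hgp : g ≠ p := by rcases hg with rfl | rfl | rfl <;> assumption
  have hhI : h ≠ I := by rcases hh with rfl | rfl | rfl <;> assumption
  have hhq : h ≠ q := by
    rcases hh with rfl | rfl | rfl
    · exact n6.symm
    · exact n10
    · exact n14
  refine stateA974 hnd sym self diag eO ep eq hI hg hh jp jq ap aq par oI ?_ ?_ ?_ ?_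
  · by_contra h0
    exact nc q e f p I O (Or.inr (Or.inr rfl)) (Or.inr (Or.inl rfl))
      (nd _ _ _ _ _ _ n10.symm n14.symm n6 n4 n5 n15.symm n9 n7 n8 n13 n11 n12 n2 n3 n1.symm) h0
      (jp' O n1 n3.symm (Or.inl rfl))
  · by_contra h0
    exact nc p e f q I O (Or.inr (Or.inl rfl)) (Or.inr (Or.inr rfl))
      (nd _ _ _ _ _ _ n9.symm n13.symm n6.symm n2 n3 n15.symm n10 n7 n8 n14 n11 n12 n4 n5
        n1.symm) h0 (jq' O n1 n5.symm (Or.inl rfl))
  · intro x y hxy
    by_contra h0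
    obtain ⟨m1, ⟨m2, m3⟩, ⟨m4, m5, m6⟩, ⟨m7, m8, m9, m10⟩, ⟨m11, m12, m13, m14, m15⟩⟩ := nodup6 hxy
    exact nc O x y p I g (Or.inl rfl) (Or.inr (Or.inl rfl))
      (nd _ _ _ _ _ _ m10.symm m14.symm m5 m4 m6 m15.symm m8 m7 m9 m12 m11 m13 m1
        m3.symm m2.symm) h0 (jp' g hgI hgp (Or.inr rfl))
  · intro x y hxy
    by_contra h0
    obtain ⟨m1, ⟨m2, m3⟩, ⟨m4, m5, m6⟩, ⟨m7, m8, m9, m10⟩, ⟨m11, m12, m13, m14, m15⟩⟩ := nodup6 hxy
    exact nc O x y q I h (Or.inl rfl) (Or.inr (Or.inr rfl))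
      (nd _ _ _ _ _ _ m10.symm m14.symm m5 m4 m6 m15.symm m8 m7 m9 m12 m11 m13 m1
        m3.symm m2.symm) h0 (jq' h hhI hhq (Or.inr rfl))

/-- **The end (780)** : at a plain end `{p, q, w}` of the vertex the three values at `I | O` have
the sum `0` (and not `1`) -/
theorem end974 {I O p q g h w : Fin 6} {s : Equiv.Perm (Fin 6)}
    (hs : s I = 0 ∧ s O = 1 ∧ s p = 2 ∧ s g = 3 ∧ s h = 4 ∧ s q = 5) (hw : w = g ∨ w = h) :
    rp s p I O + rp s q I O + rp s w I O = 0 := by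
  obtain ⟨s0, s1, s2, s3, s4, s5⟩ := hs
  rcases hw with rfl | rfl
  · rw [rp, rp, rp, s0, s1, s2, s3, s5]; decide
  · rw [rp, rp, rp, s0, s1, s2, s4, s5]; decide

/-- the diagonal sums vanish -/
theorem four974 {I O p q g h : Fin 6} {s : Equiv.Perm (Fin 6)}
    (hs : s I = 0 ∧ s O = 1 ∧ s p = 2 ∧ s g = 3 ∧ s h = 4 ∧ s q = 5) :
    rp s I p O + rp s I q O = 0 ∧ rp s p I q + rp s p O q = 0 := by
  obtain ⟨s0, s1, s2, s3, s4, s5⟩ := hs
  rw [rp, rp, rp, rp, s0, s1, s2, s5]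
  decide

end Vale.Agent.P032.H974
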