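import Vale.Agent.P032.H553.ClR1W
import Vale.Agent.P032.H758.Pure
import Vale.Agent.P032.H484.PgOf
import Vale.Agent.P032.H169.Pure
import Vale.Agent.P032.H974.StayEnd
import Vale.Agent.P032.H974.StayNII

/-!
# P032, block X: the end of the all-STAY chains with invisible points

As `H974/StayEnd.lean`, over a world `QIW T Inv` whose invisible points are not two-pair points.
The agreement and the rule (R1) outside the polygons are hypotheses (`AgR1`).
-/

open Set Filter Topology Metric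

noncomputable section

namespace Vale.Agent.P032.Six

open Vale.Agent.P032.S5 Vale.Agent.P032.S5.Tab Vale.Agent.P032.Carr Vale.Agent.P032.H961
open Vale.Agent.P032.H484

variable {U : Fin 6 → Set ℂ} {T : ℂ → Set (Fin 6)} {Inv : ℂ → ℂ → Prop} {f : ℂ → Set (Fin 6)}
  {Z : Set ℂ} {c : ℂ}
  {R δ₀ : ℝ} {V : ℤ → ℂ} {l : ℤ → Fin 6} {name : ℤ → Fin 6 → Fin 6}

/-! ### the assembly -/

/-- the tip of the side of `V 0` between `V (-1)` and `V 1` -/
def TipJ (U : Fin 6 → Set ℂ) (T : ℂ → Set (Fin 6)) (Inv : ℂ → ℂ → Prop) (f : ℂ → Set (Fin 6)) :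
    Prop :=
  ∀ {Z : Set ℂ} {c : ℂ} {R δ₀ : ℝ}, DSt U T Z f c R δ₀ → ∀ (V : ℤ → ℂ) (l : ℤ → Fin 6)
  (name : ℤ → Fin 6 → Fin 6), ChI nxR802 T Inv V l name → (∀ j, l j = 2) →
  dist (V 0) c ≤ R - 5 → ∃ v, dist v (V 1) = 1 ∧ T v = {name 0 1, name 0 4, name 0 5} ∧
    PtD T Z f c R v

/-- agreement and the rule (R1) at the points outside the polygons -/
def AgR1 (U : Fin 6 → Set ℂ) (T : ℂ → Set (Fin 6)) (Inv : ℂ → ℂ → Prop) (f : ℂ → Set (Fin 6)) :
    Prop :=
  ∀ {Z : Set ℂ} {c : ℂ} {R δ₀ : ℝ}, DSt U T Z f c R δ₀ → ∀ x, dist x c ≤ R - 2 →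
  (∀ k : PzJ U T Inv, x ∉ k.1.2) →
  (∀ i ∈ T x, ∀ j ∈ T x, i ≠ j → ¬ Dg T x i j →
    AgAt T Z f δ₀ x i j ∨ ∃ k ∈ T x, AgAt T Z f δ₀ x i k ∧ AgAt T Z f δ₀ x k j) ∧
  ∀ i j a b d e : Fin 6, [i, j, a, b, d, e].Nodup → i ∈ T x → j ∈ T x →
    lamT T Z f δ₀ i x a b ≠ 0 → lamT T Z f δ₀ j x d e ≠ 0 → False

/-- the inner colour sees nothing -/
theorem chJ_NI974 (hI : NoD T Inv) (C : ChI nxR802 T Inv V l name) (hl : ∀ j, l j = 2)
    (D : DSt U T Z f c R δ₀) (hw : QIW T Inv) (G : GaugeI758 T Inv f) {g : Fin 6}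
    (hg : ∀ j, name j 0 = g) (j : ℤ) (hj : dist (V j) c < R - 1) (b d : Fin 6) :
    lamT T Z f δ₀ g (V j) b d = 0 := by
  have h := D.df.irr
  obtain ⟨n, hn, hper⟩ := ChII974.period h hI hw C hl D.df.fin
  have K : H974J.StayC T Inv g V (fun j => name j 1) := ⟨hI, fun j => by
    have h1 := (C.qf j).toQI0
    rw [hg j, (ChII974.outer C hl j).1, (ChII974.outer C hl j).2] at h1
    exact ⟨_, _, h1⟩⟩
  refine K.NI D hn hper (fun j => ?_) j hj b d
  rw [G.qi (C.qf j), (ChII974.outer C hl j).1, (ChII974.outer C hl j).2]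

/-- the tile of a chain is pure -/
theorem chJ_pure974
    (hp : ∀ g n V α β O, PgI U T g n V α β O → ∀ x ∈ interior (Tl V), T x = {g}) (C : ChI nxR802 T Inv V l name) {g : Fin 6}
    (hg : ∀ j, name j 0 = g) {n : ℕ} {α β : ℤ → ℝ}
    (P : Pg U T g n V α β (fun j => name j 1)) : ∀ x ∈ interior (Tl V), T x = {g} := by
  refine hp g n V α β (fun j => name j 1) ⟨P, fun j => ⟨_, _, _, _, (C.qf j).dpt⟩, fun j => ?_,
    fun j y hy hT => ?_⟩
  · intro h1
    have h2 := (C.qf j).dpt.ab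
    rw [hg j] at h2
    exact h2 h1.symm
  · have h1 := (C.qf j).inn y hy (by rw [hg j]; exact hT)
    filter_upwards [h1] with w hw
    exact hw.1

/-- **the plane of a polygon** -/
theorem poly_planeJ974 (hI : NoD T Inv)
    (hp : ∀ g n V α β O, PgI U T g n V α β O → ∀ x ∈ interior (Tl V), T x = {g})
    (hw : QIW T Inv) (G : GaugeI758 T Inv f)
    (FA : ∀ V l name, ChI nxR802 T Inv V l name → Fac758 U T f V name) (D : DSt U T Z f c R δ₀) (C : ChI nxR802 T Inv V l name)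
    (hl : ∀ j, l j = 2) {g : Fin 6} (hg : ∀ j, name j 0 = g) {n : ℕ} {α β : ℤ → ℝ}
    (P : Pg U T g n V α β (fun j => name j 1)) :
    ∃ N : Ch, RPN N ∧ (∀ j t x y, N {name j t, name j x, name j y} = tabA t x y) ∧
      ∀ x ∈ Tl V, dist x c ≤ R - 7 → ∀ i ∈ T x, i ≠ g → ∀ b d, i ≠ b → i ≠ d → b ≠ d →
        lamT T Z f δ₀ i x b d = N {i, b, d} := by
  have h := D.df.irr
  have hC := C.chn758 h hw G
  obtain ⟨N, hN, hNt⟩ := hC.plane974 hl
  refine ⟨N, hN, hNt, fun x hx hxc i hi hig b d hb hd hbd => ?_⟩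
  exact hC.tile974 D (FA V l name C) hl hNt hg P
    (fun j hj b d => chJ_NI974 hI C hl D hw G hg j hj b d) (fun x hx => P.frontier_cases h hx)
    (chJ_pure974 hp C hg P) hx hxc hi hig hb hd hbd

/-- **No all-STAY chain**, from `TipJ` and `AgR1` -/
theorem stayEndJ974 (h : DF U T) (hI : NoD T Inv)
    (hp : ∀ g n V α β O, PgI U T g n V α β O → ∀ x ∈ interior (Tl V), T x = {g})
    (hw : QIW T Inv) (G : GaugeI758 T Inv f)
    (FA : ∀ V l name, ChI nxR802 T Inv V l name → Fac758 U T f V name)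
    (SA : ∀ V l name, ChI nxR802 T Inv V l name → ∀ j, l j = 2)
    (HV : TipJ U T Inv f) (HA : AgR1 U T Inv f) (C : ChI nxR802 T Inv V l name) : False := by
  obtain ⟨Z, δ₀, D⟩ := h.exists_DS G.ch (V 0) 20
  obtain ⟨v, hv1, hTv, P⟩ := HV D V l name C (SA V l name C) (by rw [dist_self]; norm_num)
  have hvc : dist v (V 0) ≤ 2 := by
    have h1 := dist_triangle v (V 1) (V 0)
    have h2 := (C.qf 0).toQI0.dist1
    rw [zero_add] at h2
    linarith
  have hball : ∀ x ∈ closedBall v 1, dist x (V 0) ≤ 3 := fun x hx => by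
    have h1 := dist_triangle x v (V 0)
    have h2 := mem_closedBall.1 hx
    linarith
  -- the planes
  have hpl : ∀ k : PzJ U T Inv, ∃ N : Ch, RPN N ∧ ∀ x ∈ k.1.2, dist x (V 0) ≤ 20 - 7 → ∀ i ∈ T x,
      i ≠ k.1.1 → ∀ b d, i ≠ b → i ≠ d → b ≠ d → lamT T Z f δ₀ i x b d = N {i, b, d} := by
    rintro ⟨⟨g, Q⟩, W, l', name', n, α, β, C', hl', hg, P', hQ⟩
    obtain ⟨N, hN, -, hst⟩ := poly_planeJ974 hI hp hw G FA D C' hl' hg P'
    refine ⟨N, hN, fun x hx => ?_⟩
    have hQ' : Q = Tl W := hQ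
    exact hst x (by rw [← hQ']; exact hx)
  choose Nk hNk hstk using hpl
  -- the faces of a three coloured point
  have hthree : (T v).ncard = 3 := P.three
  have hvQ : ∀ k : PzJ U T Inv, v ∉ k.1.2 := by
    rintro ⟨⟨g, Q⟩, W, l', name', n, α, β, C', hl', hg, P', hQ⟩ hv
    have hQ' : Q = Tl W := hQ
    have hv : v ∈ Tl W := by rw [← hQ']; exact hv
    by_cases hi : v ∈ interior (Tl W)
    · rw [chJ_pure974 hp C' hg P' v hi, Set.ncard_singleton] at hthree
      omega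
    · rcases P'.frontier_cases h.irr ⟨subset_closure hv, hi⟩ with ⟨j, hj⟩ | ⟨j, t, -, -, hT⟩
      · rw [hj, (C'.qf j).ord0] at hthree
        omega
      · rw [hT] at hthree
        have h3 : ({g, name' j 1} : Set (Fin 6)).ncard = 3 := hthree
        have h4 := Set.ncard_insert_le g ({name' j 1} : Set (Fin 6))
        rw [Set.ncard_singleton, h3] at h4
        omega
  have A : PolA T Z f δ₀ v (fun k : PzJ U T Inv => k.1.2) (fun k => k.1.1) Nk := by
    refine ⟨hNk, fun x _ => pzJ_lf h.irr h.fin x, fun x _ k hk => pzJ_op h.irr x k hk,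
      fun x _ k k' hk hk' hne => absurd (pzJ_dis h.irr x k k' hk hk') hne, ?_, ?_, ?_⟩
    · intro x hx k hk i hi hik b d hb hd hbd
      exact hstk k x hk (by have := hball x hx; linarith) i hi hik b d hb hd hbd
    · intro x hx hk
      exact (HA D x (by have := hball x hx; linarith) hk).1
    · intro x hx hk
      exact (HA D x (by have := hball x hx; linarith) hk).2
  -- the polygon of the chain
  have hl0 := SA V l name C
  obtain ⟨n, α, β, P0⟩ := ChII974.pg h.irr hI hw C hl0 h.fin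
  have hg := ChII974.inner C hl0
  obtain ⟨N, hN, hNt, hst⟩ := poly_planeJ974 hI hp hw G FA D C hl0 hg P0
  let k₀ : PzJ U T Inv := ⟨(name 0 0, Tl V), V, l, name, n, α, β, C, hl0, hg, P0, rfl⟩
  have hx₀ : V 1 ∈ closedBall v 1 := by
    rw [mem_closedBall, dist_comm, hv1]
  have hk₀ : V 1 ∈ k₀.1.2 := P0.poly.mem_tl h.irr 1
  have hi1 : name 1 1 ∈ T (V 1) := by rw [(C.qf 1).pal]; simp
  have hi2 : name 1 1 ≠ name 0 0 := by
    rw [← hg 1]; exact (C.qf 1).dpt.ab.symm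
  have hVc : dist (V 1) (V 0) ≤ 20 - 7 := by
    have h2 := (C.qf 0).toQI0.dist1
    rw [zero_add] at h2
    linarith
  have hLk : Lk (Nk k₀) = Lk N := by
    refine Lk_inj (hNk k₀) hN (i := name 1 1) ?_
    rw [← lamT_eq_Lk (hstk k₀ (V 1) hk₀ hVc _ hi1 hi2),
      ← lamT_eq_Lk (hst (V 1) hk₀ hVc _ hi1 hi2)]
  have hnd := (C.qf 0).nd
  have hnd' := hnd
  simp only [List.nodup_cons, List.mem_cons, List.not_mem_nil, or_false, not_or,
    List.nodup_nil, and_true, not_false_eq_true] at hnd'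
  refine A.stateA_false D (by linarith) P (fun k hk _ => hvQ k hk) hx₀ hk₀
    (a := name 0 1) (b := name 0 4) (g := name 0 5) (d := name 0 0) (e := name 0 2)
    (h := name 0 3) ?_ hTv (Or.inl ?_)
  · simp only [List.nodup_cons, List.mem_cons, List.not_mem_nil, or_false, not_or,
      List.nodup_nil, and_true, not_false_eq_true]
    tauto
  · have h14 : name 0 1 ≠ name 0 4 := by tauto
    have h15 : name 0 1 ≠ name 0 5 := by tauto
    have h45 : name 0 4 ≠ name 0 5 := by tauto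
    have h1 := congrFun (congrFun (congrFun hLk (name 0 1)) (name 0 4)) (name 0 5)
    rw [Lk_eq h14 h15 h45, Lk_eq h14 h15 h45, hNt] at h1
    rw [h1]
    decide

end Vale.Agent.P032.Six
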